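import Vale.Agent.Lib.Common.Kron

/-!
A tree of boxes over the Kronecker check: nonnegativity of a polynomial in four variables on a
rational box, by Moebius substitution on each leaf of a binary subdivision.
-/

noncomputable section

namespace Vale.Agent.Lib.P154M

open Vale.Agent.Lib.Common.Kron Vale.Agent.Lib.Common.Kron.PE

/-- An interval `(lo/den, hi/den]`. -/
structure Iv where
  lo : ℕ
  hi : ℕ
  den : ℕ

/-- A box in four variables. -/
structure Cell where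
  i0 : Iv
  i1 : Iv
  i2 : Iv
  i3 : Iv

/-- Degree vectors. -/
structure Dg where
  d0 : ℕ
  d1 : ℕ
  d2 : ℕ
  d3 : ℕ

namespace Dg
def zero : Dg := ⟨0, 0, 0, 0⟩
def add (a b : Dg) : Dg := ⟨a.d0 + b.d0, a.d1 + b.d1, a.d2 + b.d2, a.d3 + b.d3⟩
def mx (a b : Dg) : Dg := ⟨Nat.max a.d0 b.d0, Nat.max a.d1 b.d1, Nat.max a.d2 b.d2, Nat.max a.d3 b.d3⟩
def sub (a b : Dg) : Dg := ⟨a.d0 - b.d0, a.d1 - b.d1, a.d2 - b.d2, a.d3 - b.d3⟩
def smul (k : ℕ) (a : Dg) : Dg := ⟨k * a.d0, k * a.d1, k * a.d2, k * a.d3⟩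
end Dg

/-- Numerator of the substitution. -/
def nE (I : Iv) (i : ℕ) : PE := PE.add (PE.mul (c I.lo) (v i)) (c I.hi)
/-- Denominator of the substitution. -/
def dE (I : Iv) (i : ℕ) : PE := PE.mul (c I.den) (PE.add (c 1) (v i))

/-- Product of powers of denominators. -/
def Cell.dp (C : Cell) (d : Dg) : PE :=
  PE.mul (PE.pow (dE C.i0 0) d.d0) (PE.mul (PE.pow (dE C.i1 1) d.d1)
    (PE.mul (PE.pow (dE C.i2 2) d.d2) (PE.pow (dE C.i3 3) d.d3)))

/-- Homogenised substitution. -/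
def hom (C : Cell) : PE → PE × Dg
  | c n => (c n, Dg.zero)
  | v 0 => (nE C.i0 0, ⟨1, 0, 0, 0⟩)
  | v 1 => (nE C.i1 1, ⟨0, 1, 0, 0⟩)
  | v 2 => (nE C.i2 2, ⟨0, 0, 1, 0⟩)
  | v 3 => (nE C.i3 3, ⟨0, 0, 0, 1⟩)
  | v _ => (c 0, Dg.zero)
  | neg a => (PE.neg (hom C a).1, (hom C a).2)
  | PE.add a b =>
      (PE.add (PE.mul (hom C a).1 (C.dp (((hom C a).2.mx (hom C b).2).sub (hom C a).2)))
        (PE.mul (hom C b).1 (C.dp (((hom C a).2.mx (hom C b).2).sub (hom C b).2))),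
        (hom C a).2.mx (hom C b).2)
  | PE.mul a b => (PE.mul (hom C a).1 (hom C b).1, (hom C a).2.add (hom C b).2)
  | PE.pow a k => (PE.pow (hom C a).1 k, (hom C a).2.smul k)

/-- The point with the four given coordinates. -/
def xv (x0 x1 x2 x3 : ℝ) : ℕ → ℝ
  | 0 => x0
  | 1 => x1
  | 2 => x2
  | 3 => x3
  | _ => 0

/-- The value of the substitution. -/
def Iv.sb (I : Iv) (T : ℝ) : ℝ := ((I.lo : ℝ) * T + I.hi) / ((I.den : ℝ) * (1 + T))

/-- The positive denominator value. -/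
def Iv.dv (I : Iv) (T : ℝ) : ℝ := (I.den : ℝ) * (1 + T)

/-- Value of the denominator product. -/
def Cell.dvv (C : Cell) (T0 T1 T2 T3 : ℝ) (d : Dg) : ℝ :=
  C.i0.dv T0 ^ d.d0 * (C.i1.dv T1 ^ d.d1 * (C.i2.dv T2 ^ d.d2 * C.i3.dv T3 ^ d.d3))

theorem eval_dp (C : Cell) (T0 T1 T2 T3 : ℝ) (d : Dg) :
    evalR (xv T0 T1 T2 T3) (C.dp d) = C.dvv T0 T1 T2 T3 d := by
  simp [Cell.dp, Cell.dvv, dE, evalR, Iv.dv, xv]

theorem dvv_add (C : Cell) (T0 T1 T2 T3 : ℝ) (a b : Dg) :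
    C.dvv T0 T1 T2 T3 (a.add b) = C.dvv T0 T1 T2 T3 a * C.dvv T0 T1 T2 T3 b := by
  simp only [Cell.dvv, Dg.add, pow_add]
  ring

theorem dvv_smul (C : Cell) (T0 T1 T2 T3 : ℝ) (k : ℕ) (a : Dg) :
    C.dvv T0 T1 T2 T3 (a.smul k) = C.dvv T0 T1 T2 T3 a ^ k := by
  have h1 : ∀ (x : ℝ) (n : ℕ), x ^ (k * n) = (x ^ n) ^ k := fun x n => by rw [mul_comm, pow_mul]
  simp only [Cell.dvv, Dg.smul, h1, mul_pow]

theorem dvv_sub_mx_left (C : Cell) (T0 T1 T2 T3 : ℝ) (a b : Dg) :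
    C.dvv T0 T1 T2 T3 ((a.mx b).sub a) * C.dvv T0 T1 T2 T3 a = C.dvv T0 T1 T2 T3 (a.mx b) := by
  rw [← dvv_add]
  congr 1
  simp only [Dg.mx, Dg.sub, Dg.add]
  congr 1 <;> exact Nat.sub_add_cancel (Nat.le_max_left _ _)

theorem dvv_sub_mx_right (C : Cell) (T0 T1 T2 T3 : ℝ) (a b : Dg) :
    C.dvv T0 T1 T2 T3 ((a.mx b).sub b) * C.dvv T0 T1 T2 T3 b = C.dvv T0 T1 T2 T3 (a.mx b) := by
  rw [← dvv_add]
  congr 1
  simp only [Dg.mx, Dg.sub, Dg.add]
  congr 1 <;> exact Nat.sub_add_cancel (Nat.le_max_right _ _)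

/-- Semantics of the substitution. -/
theorem hom_sem (C : Cell) (T0 T1 T2 T3 : ℝ)
    (h0 : C.i0.dv T0 ≠ 0) (h1 : C.i1.dv T1 ≠ 0) (h2 : C.i2.dv T2 ≠ 0) (h3 : C.i3.dv T3 ≠ 0)
    (e : PE) :
    evalR (xv T0 T1 T2 T3) (hom C e).1
      = evalR (xv (C.i0.sb T0) (C.i1.sb T1) (C.i2.sb T2) (C.i3.sb T3)) e
        * C.dvv T0 T1 T2 T3 (hom C e).2 := by
  induction e with
  | c n => simp [hom, evalR, Cell.dvv, Dg.zero]
  | v i =>
    match i with
    | 0 =>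
      simp only [hom, evalR, xv, nE, Cell.dvv, pow_one, pow_zero, mul_one]
      exact (div_mul_cancel₀ _ h0).symm
    | 1 =>
      simp only [hom, evalR, xv, nE, Cell.dvv, pow_one, pow_zero, mul_one, one_mul]
      exact (div_mul_cancel₀ _ h1).symm
    | 2 =>
      simp only [hom, evalR, xv, nE, Cell.dvv, pow_one, pow_zero, mul_one, one_mul]
      exact (div_mul_cancel₀ _ h2).symm
    | 3 =>
      simp only [hom, evalR, xv, nE, Cell.dvv, pow_one, pow_zero, mul_one, one_mul]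
      exact (div_mul_cancel₀ _ h3).symm
    | (n + 4) =>
      simp [hom, evalR, xv, Cell.dvv, Dg.zero]
  | neg a ih =>
    simp only [hom, evalR, ih]
    ring
  | add a b iha ihb =>
    simp only [hom, evalR, eval_dp, iha, ihb]
    rw [← dvv_sub_mx_left C T0 T1 T2 T3 (hom C a).2 (hom C b).2]
    have e1 := dvv_sub_mx_right C T0 T1 T2 T3 (hom C a).2 (hom C b).2
    rw [← dvv_sub_mx_left C T0 T1 T2 T3 (hom C a).2 (hom C b).2] at e1
    have e2 : evalR (xv (C.i0.sb T0) (C.i1.sb T1) (C.i2.sb T2) (C.i3.sb T3)) b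
        * (C.dvv T0 T1 T2 T3 (hom C b).2
          * C.dvv T0 T1 T2 T3 (((hom C a).2.mx (hom C b).2).sub (hom C b).2))
        = evalR (xv (C.i0.sb T0) (C.i1.sb T1) (C.i2.sb T2) (C.i3.sb T3)) b
        * (C.dvv T0 T1 T2 T3 (((hom C a).2.mx (hom C b).2).sub (hom C a).2)
          * C.dvv T0 T1 T2 T3 (hom C a).2) := by
      rw [← e1]
      ring
    linear_combination e2
  | mul a b iha ihb =>
    simp only [hom, evalR, iha, ihb, dvv_add]
    ring
  | pow a k ih =>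
    simp only [hom, evalR, ih, dvv_smul, mul_pow]

theorem Iv.dv_pos (I : Iv) (hd : 0 < I.den) {T : ℝ} (hT : 0 ≤ T) : 0 < I.dv T := by
  unfold Iv.dv
  have : (0 : ℝ) < I.den := by exact_mod_cast hd
  positivity

theorem dvv_pos (C : Cell) {T0 T1 T2 T3 : ℝ} (d : Dg) (h0 : 0 < C.i0.dv T0) (h1 : 0 < C.i1.dv T1)
    (h2 : 0 < C.i2.dv T2) (h3 : 0 < C.i3.dv T3) : 0 < C.dvv T0 T1 T2 T3 d := by
  unfold Cell.dvv
  positivity

theorem xv_nonneg {x0 x1 x2 x3 : ℝ} (h0 : 0 ≤ x0) (h1 : 0 ≤ x1) (h2 : 0 ≤ x2) (h3 : 0 ≤ x3) :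
    ∀ i, 0 ≤ xv x0 x1 x2 x3 i
  | 0 => h0
  | 1 => h1
  | 2 => h2
  | 3 => h3
  | (_ + 4) => le_refl _

/-- Membership of a half open interval. -/
def Iv.mem (I : Iv) (x : ℝ) : Prop := (I.lo : ℝ) / I.den < x ∧ x ≤ (I.hi : ℝ) / I.den

theorem Iv.exists_T (I : Iv) (hd : 0 < I.den) {x : ℝ} (h : I.mem x) :
    ∃ T : ℝ, 0 ≤ T ∧ I.sb T = x := by
  have hd' : (0 : ℝ) < I.den := by exact_mod_cast hd
  obtain ⟨h1, h2⟩ := h
  rw [div_lt_iff₀ hd'] at h1
  rw [le_div_iff₀ hd'] at h2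
  have hp : 0 < x * I.den - I.lo := by linarith
  refine ⟨((I.hi : ℝ) - x * I.den) / (x * I.den - I.lo), div_nonneg (by linarith) hp.le, ?_⟩
  unfold Iv.sb
  have hne : x * I.den - I.lo ≠ 0 := hp.ne'
  have h3 : 1 + ((I.hi : ℝ) - x * I.den) / (x * I.den - I.lo)
      = ((I.hi : ℝ) - I.lo) / (x * I.den - I.lo) := by
    field_simp
    ring
  have h4 : (I.hi : ℝ) - I.lo ≠ 0 := by
    intro h5
    have : x * I.den - I.lo ≤ 0 := by linarith
    linarith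
  rw [h3]
  field_simp
  ring

/-- Membership of a cell. -/
def Cell.mem (C : Cell) (x0 x1 x2 x3 : ℝ) : Prop :=
  C.i0.mem x0 ∧ C.i1.mem x1 ∧ C.i2.mem x2 ∧ C.i3.mem x3

/-- All denominators are positive. -/
def Cell.good (C : Cell) : Prop :=
  0 < C.i0.den ∧ 0 < C.i1.den ∧ 0 < C.i2.den ∧ 0 < C.i3.den

/-- A successful check gives nonnegativity on the cell. -/
theorem leaf_nonneg {C : Cell} (hC : C.good) {e : PE} {rad : List ℕ}
    (h : check (hom C e).1 (Nat.log2 (l1b (hom C e).1) + 3) rad = true) {x0 x1 x2 x3 : ℝ}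
    (hx : C.mem x0 x1 x2 x3) :
    0 ≤ evalR (xv x0 x1 x2 x3) e := by
  obtain ⟨hc0, hc1, hc2, hc3⟩ := hC
  obtain ⟨h0, h1, h2, h3⟩ := hx
  obtain ⟨T0, hT0, e0⟩ := C.i0.exists_T hc0 h0
  obtain ⟨T1, hT1, e1⟩ := C.i1.exists_T hc1 h1
  obtain ⟨T2, hT2, e2⟩ := C.i2.exists_T hc2 h2
  obtain ⟨T3, hT3, e3⟩ := C.i3.exists_T hc3 h3
  have p0 := C.i0.dv_pos hc0 hT0
  have p1 := C.i1.dv_pos hc1 hT1
  have p2 := C.i2.dv_pos hc2 hT2
  have p3 := C.i3.dv_pos hc3 hT3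
  have hn := nonneg_of_check h (xv T0 T1 T2 T3) (xv_nonneg hT0 hT1 hT2 hT3)
  rw [hom_sem C T0 T1 T2 T3 p0.ne' p1.ne' p2.ne' p3.ne', e0, e1, e2, e3] at hn
  exact nonneg_of_mul_nonneg_left hn (dvv_pos C _ p0 p1 p2 p3)

/-- Binary subdivision trees. -/
inductive BT where
  | leaf : BT
  | drop : BT
  | node : ℕ → BT → BT → BT

/-- The check with automatic digit size. -/
def acheck (e : PE) (rad : List ℕ) : Bool := check e (Nat.log2 (l1b e) + 3) rad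

theorem nonneg_of_acheck {e : PE} {rad : List ℕ} (h : acheck e rad = true)
    (x : ℕ → ℝ) (hx : ∀ i, 0 ≤ x i) : 0 ≤ evalR x e := nonneg_of_check h x hx

/-- Lower half of an interval. -/
def Iv.lowH (I : Iv) : Iv := ⟨2 * I.lo, I.lo + I.hi, 2 * I.den⟩
/-- Upper half of an interval. -/
def Iv.upH (I : Iv) : Iv := ⟨I.lo + I.hi, 2 * I.hi, 2 * I.den⟩

/-- Split a cell along an axis, lower part. -/
def Cell.lowH (C : Cell) : ℕ → Cell
  | 0 => { C with i0 := C.i0.lowH }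
  | 1 => { C with i1 := C.i1.lowH }
  | 2 => { C with i2 := C.i2.lowH }
  | _ => { C with i3 := C.i3.lowH }

/-- Split a cell along an axis, upper part. -/
def Cell.upH (C : Cell) : ℕ → Cell
  | 0 => { C with i0 := C.i0.upH }
  | 1 => { C with i1 := C.i1.upH }
  | 2 => { C with i2 := C.i2.upH }
  | _ => { C with i3 := C.i3.upH }

/-- The check on a tree. The expression `r` defines the region `0 < r`. -/
def checkT (e r : PE) (rad : List ℕ) : BT → Cell → Bool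
  | .leaf, C => acheck (hom C e).1 rad
  | .drop, C => acheck (hom C (neg r)).1 rad
  | .node ax l R, C => checkT e r rad l (C.lowH ax) && checkT e r rad R (C.upH ax)

theorem Iv.mem_split (I : Iv) (hd : 0 < I.den) {x : ℝ} (h : I.mem x) : I.lowH.mem x ∨ I.upH.mem x := by
  have hd' : (0 : ℝ) < I.den := by exact_mod_cast hd
  obtain ⟨h1, h2⟩ := h
  rcases le_or_gt x (((I.lo : ℝ) + I.hi) / (2 * I.den)) with h3 | h3
  · left
    refine ⟨?_, ?_⟩
    · simp only [Iv.lowH]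
      push_cast
      rw [mul_div_mul_left _ _ (by norm_num : (2 : ℝ) ≠ 0)]
      exact h1
    · simp only [Iv.lowH]
      push_cast
      exact h3
  · right
    refine ⟨?_, ?_⟩
    · simp only [Iv.upH]
      push_cast
      exact h3
    · simp only [Iv.upH]
      push_cast
      rw [mul_div_mul_left _ _ (by norm_num : (2 : ℝ) ≠ 0)]
      exact h2

theorem Cell.good_lowH {C : Cell} (h : C.good) (ax : ℕ) : (C.lowH ax).good := by
  obtain ⟨h0, h1, h2, h3⟩ := h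
  match ax with
  | 0 => exact ⟨by simpa [Cell.lowH, Iv.lowH] using h0, h1, h2, h3⟩
  | 1 => exact ⟨h0, by simpa [Cell.lowH, Iv.lowH] using h1, h2, h3⟩
  | 2 => exact ⟨h0, h1, by simpa [Cell.lowH, Iv.lowH] using h2, h3⟩
  | (_ + 3) => exact ⟨h0, h1, h2, by simpa [Cell.lowH, Iv.lowH] using h3⟩

theorem Cell.good_upH {C : Cell} (h : C.good) (ax : ℕ) : (C.upH ax).good := by
  obtain ⟨h0, h1, h2, h3⟩ := h
  match ax with
  | 0 => exact ⟨by simpa [Cell.upH, Iv.upH] using h0, h1, h2, h3⟩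
  | 1 => exact ⟨h0, by simpa [Cell.upH, Iv.upH] using h1, h2, h3⟩
  | 2 => exact ⟨h0, h1, by simpa [Cell.upH, Iv.upH] using h2, h3⟩
  | (_ + 3) => exact ⟨h0, h1, h2, by simpa [Cell.upH, Iv.upH] using h3⟩

theorem Cell.mem_split {C : Cell} (hC : C.good) (ax : ℕ) {x0 x1 x2 x3 : ℝ}
    (h : C.mem x0 x1 x2 x3) : (C.lowH ax).mem x0 x1 x2 x3 ∨ (C.upH ax).mem x0 x1 x2 x3 := by
  obtain ⟨c0, c1, c2, c3⟩ := hC
  obtain ⟨h0, h1, h2, h3⟩ := h
  match ax with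
  | 0 =>
    rcases C.i0.mem_split c0 h0 with h | h
    · exact Or.inl ⟨h, h1, h2, h3⟩
    · exact Or.inr ⟨h, h1, h2, h3⟩
  | 1 =>
    rcases C.i1.mem_split c1 h1 with h | h
    · exact Or.inl ⟨h0, h, h2, h3⟩
    · exact Or.inr ⟨h0, h, h2, h3⟩
  | 2 =>
    rcases C.i2.mem_split c2 h2 with h | h
    · exact Or.inl ⟨h0, h1, h, h3⟩
    · exact Or.inr ⟨h0, h1, h, h3⟩
  | (_ + 3) =>
    rcases C.i3.mem_split c3 h3 with h | h
    · exact Or.inl ⟨h0, h1, h2, h⟩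
    · exact Or.inr ⟨h0, h1, h2, h⟩

/-- Soundness of the tree check on half open cells. -/
theorem checkT_sound {e r : PE} {rad : List ℕ} : ∀ (T : BT) {C : Cell}, C.good →
    checkT e r rad T C = true → ∀ {x0 x1 x2 x3 : ℝ}, C.mem x0 x1 x2 x3 →
    0 < evalR (xv x0 x1 x2 x3) r → 0 ≤ evalR (xv x0 x1 x2 x3) e
  | .leaf, C, hC, h, x0, x1, x2, x3, hx, _ => leaf_nonneg hC h hx
  | .drop, C, hC, h, x0, x1, x2, x3, hx, hr => by
    have h1 : 0 ≤ evalR (xv x0 x1 x2 x3) (neg r) := leaf_nonneg hC h hx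
    simp only [evalR] at h1
    linarith
  | .node ax l R, C, hC, h, x0, x1, x2, x3, hx, hr => by
    simp only [checkT, Bool.and_eq_true] at h
    rcases Cell.mem_split hC ax hx with h1 | h1
    · exact checkT_sound l (Cell.good_lowH hC ax) h.1 h1 hr
    · exact checkT_sound R (Cell.good_upH hC ax) h.2 h1 hr

theorem checkT_node {e r : PE} {rad : List ℕ} {ax : ℕ} {l R : BT} {C : Cell}
    (h1 : checkT e r rad l (C.lowH ax) = true) (h2 : checkT e r rad R (C.upH ax) = true) :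
    checkT e r rad (.node ax l R) C = true := by
  simp only [checkT, Bool.and_eq_true]
  exact ⟨h1, h2⟩

/-- Continuity along a segment. -/
theorem evalR_cont (x0 x1 x2 x3 a0 a1 a2 a3 : ℝ) (e : PE) :
    Continuous fun t : ℝ =>
      evalR (xv (x0 + t * a0) (x1 + t * a1) (x2 + t * a2) (x3 + t * a3)) e := by
  induction e with
  | c n => exact continuous_const
  | v i =>
    match i with
    | 0 => simp only [evalR, xv]; fun_prop
    | 1 => simp only [evalR, xv]; fun_prop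
    | 2 => simp only [evalR, xv]; fun_prop
    | 3 => simp only [evalR, xv]; fun_prop
    | (n + 4) => simp only [evalR, xv]; exact continuous_const
  | neg a ih => simp only [evalR]; exact ih.neg
  | add a b iha ihb => simp only [evalR]; exact iha.add ihb
  | mul a b iha ihb => simp only [evalR]; exact iha.mul ihb
  | pow a k ih => simp only [evalR]; exact ih.pow k

/-- Membership of a closed interval. -/
def Iv.cmem (I : Iv) (x : ℝ) : Prop := (I.lo : ℝ) / I.den ≤ x ∧ x ≤ (I.hi : ℝ) / I.den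

theorem Iv.mem_of_cmem (I : Iv) (hd : 0 < I.den) (hl : I.lo < I.hi) {x t : ℝ} (h : I.cmem x)
    (h0 : 0 < t) (h1 : t ≤ 1) : I.mem (x + t * ((I.hi : ℝ) / I.den - x)) := by
  have hd' : (0 : ℝ) < I.den := by exact_mod_cast hd
  have hl' : (I.lo : ℝ) / I.den < (I.hi : ℝ) / I.den := by
    rw [div_lt_div_iff_of_pos_right hd']
    exact_mod_cast hl
  obtain ⟨h2, h3⟩ := h
  refine ⟨?_, ?_⟩
  · have h5 : 0 ≤ (1 - t) * (x - (I.lo : ℝ) / I.den) :=
      mul_nonneg (by linarith) (by linarith)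
    have h6 : 0 < t * ((I.hi : ℝ) / I.den - (I.lo : ℝ) / I.den) :=
      mul_pos h0 (by linarith)
    nlinarith
  · have h5 : 0 ≤ (1 - t) * ((I.hi : ℝ) / I.den - x) := mul_nonneg (by linarith) (by linarith)
    nlinarith

/-- The main theorem of this file: nonnegativity on a closed box inside the region. -/
theorem tree_nonneg {e r : PE} {rad : List ℕ} {T : BT} {C : Cell} (hC : C.good)
    (hl0 : C.i0.lo < C.i0.hi) (hl1 : C.i1.lo < C.i1.hi) (hl2 : C.i2.lo < C.i2.hi)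
    (hl3 : C.i3.lo < C.i3.hi) (h : checkT e r rad T C = true) {x0 x1 x2 x3 : ℝ}
    (h0 : C.i0.cmem x0) (h1 : C.i1.cmem x1) (h2 : C.i2.cmem x2) (h3 : C.i3.cmem x3)
    (hr : 0 < evalR (xv x0 x1 x2 x3) r) : 0 ≤ evalR (xv x0 x1 x2 x3) e := by
  set a0 := (C.i0.hi : ℝ) / C.i0.den - x0 with ha0
  set a1 := (C.i1.hi : ℝ) / C.i1.den - x1 with ha1
  set a2 := (C.i2.hi : ℝ) / C.i2.den - x2 with ha2
  set a3 := (C.i3.hi : ℝ) / C.i3.den - x3 with ha3
  have ce := evalR_cont x0 x1 x2 x3 a0 a1 a2 a3 e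
  have cr := evalR_cont x0 x1 x2 x3 a0 a1 a2 a3 r
  have e0 : ∀ z : PE, evalR (xv (x0 + 0 * a0) (x1 + 0 * a1) (x2 + 0 * a2) (x3 + 0 * a3)) z
      = evalR (xv x0 x1 x2 x3) z := by
    intro z
    simp only [zero_mul, add_zero]
  have t1 := ce.tendsto 0
  have t2 := cr.tendsto 0
  simp only [e0] at t1 t2
  have ev1 : ∀ᶠ t in nhdsWithin (0 : ℝ) (Set.Ioi 0),
      0 < evalR (xv (x0 + t * a0) (x1 + t * a1) (x2 + t * a2) (x3 + t * a3)) r :=
    (tendsto_nhdsWithin_of_tendsto_nhds t2).eventually (lt_mem_nhds hr)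
  have ev2 : ∀ᶠ t in nhdsWithin (0 : ℝ) (Set.Ioi 0), t ∈ Set.Ioo (0 : ℝ) 1 :=
    Ioo_mem_nhdsGT (by norm_num)
  have ev3 : ∀ᶠ t in nhdsWithin (0 : ℝ) (Set.Ioi 0),
      0 ≤ evalR (xv (x0 + t * a0) (x1 + t * a1) (x2 + t * a2) (x3 + t * a3)) e := by
    filter_upwards [ev1, ev2] with t h5 h6
    have hm : C.mem (x0 + t * a0) (x1 + t * a1) (x2 + t * a2) (x3 + t * a3) :=
      ⟨C.i0.mem_of_cmem hC.1 hl0 h0 h6.1 h6.2.le, C.i1.mem_of_cmem hC.2.1 hl1 h1 h6.1 h6.2.le,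
        C.i2.mem_of_cmem hC.2.2.1 hl2 h2 h6.1 h6.2.le,
        C.i3.mem_of_cmem hC.2.2.2 hl3 h3 h6.1 h6.2.le⟩
    exact checkT_sound T hC h hm h5
  exact ge_of_tendsto (tendsto_nhdsWithin_of_tendsto_nhds t1) ev3

end Vale.Agent.Lib.P154M
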