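import Vale.Agent.Lib.P154M.FinE

set_option linter.defProp false

/-!
Kernel checks: final polynomial.
-/

namespace Vale.Agent.Lib.P154M

open Vale.Agent.Lib.Common.Kron Vale.Agent.Lib.Common.Kron.PE

set_option maxRecDepth 100000 in
def gDA1_47 : checkT (eChA iD) (c 1) [11, 11, 9, 23] (.node 2 .leaf .leaf) ((((((rDA1.upH 3).lowH 2).upH 0).upH 1).upH 0).lowH 1) = true := by
  decide +kernel

set_option maxRecDepth 100000 in
def gDA1_48 : checkT (eChA iD) (c 1) [11, 11, 9, 23] .leaf (((((((rDA1.upH 3).lowH 2).upH 0).upH 1).upH 0).upH 1).lowH 2) = true := by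
  decide +kernel

set_option maxRecDepth 100000 in
def gDA1_49 : checkT (eChA iD) (c 1) [11, 11, 9, 23] .leaf ((((((((rDA1.upH 3).lowH 2).upH 0).upH 1).upH 0).upH 1).upH 2).lowH 3) = true := by
  decide +kernel

set_option maxRecDepth 100000 in
def gDA1_50 : checkT (eChA iD) (c 1) [11, 11, 9, 23] .leaf ((((((((((rDA1.upH 3).lowH 2).upH 0).upH 1).upH 0).upH 1).upH 2).upH 3).lowH 0).lowH 3) = true := by
  decide +kernel

end Vale.Agent.Lib.P154M
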