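import Vale.Agent.Lib.P154M.FinE

set_option linter.defProp false

/-!
Kernel checks: final polynomial.
-/

namespace Vale.Agent.Lib.P154M

open Vale.Agent.Lib.Common.Kron Vale.Agent.Lib.Common.Kron.PE

set_option maxRecDepth 100000 in
def gDB2_1 : checkT (eChB2 iD) (c 1) [25, 11, 11, 23] .leaf (rDB2.upH 2) = true := by
  decide +kernel

end Vale.Agent.Lib.P154M
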