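import Vale.Agent.Lib.P154M.CkFD0
import Vale.Agent.Lib.P154M.CkFD1
import Vale.Agent.Lib.P154M.CkFD2
import Vale.Agent.Lib.P154M.CkFD3
import Vale.Agent.Lib.P154M.CkFD4
import Vale.Agent.Lib.P154M.CkFD5
import Vale.Agent.Lib.P154M.CkFD6
import Vale.Agent.Lib.P154M.CkFD7
import Vale.Agent.Lib.P154M.CkFD8
import Vale.Agent.Lib.P154M.CkFD9
import Vale.Agent.Lib.P154M.CkFD10
import Vale.Agent.Lib.P154M.CkFD11
import Vale.Agent.Lib.P154M.CkFD12
import Vale.Agent.Lib.P154M.CkFD13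
import Vale.Agent.Lib.P154M.CkFD14
import Vale.Agent.Lib.P154M.CkFD15
import Vale.Agent.Lib.P154M.CkFD16
import Vale.Agent.Lib.P154M.CkFD17

/-!
Kernel checks: final polynomial, assembled.
-/

namespace Vale.Agent.Lib.P154M

open Vale.Agent.Lib.Common.Kron Vale.Agent.Lib.Common.Kron.PE

theorem hDA1 : ∃ T, checkT (eChA iD) (c 1) [11, 11, 9, 23] T rDA1 = true :=
  ⟨_, (checkT_node (checkT_node (checkT_node (checkT_node (checkT_node (checkT_node (checkT_node (checkT_node gDA1_0 gDA1_1) gDA1_2) gDA1_3) (checkT_node (checkT_node gDA1_4 gDA1_5) gDA1_6)) gDA1_7) (checkT_node (checkT_node (checkT_node gDA1_8 gDA1_9) gDA1_10) gDA1_11)) gDA1_12) (checkT_node (checkT_node (checkT_node (checkT_node (checkT_node (checkT_node (checkT_node gDA1_13 gDA1_14) gDA1_15) gDA1_16) (checkT_node (checkT_node gDA1_17 gDA1_18) gDA1_19)) gDA1_20) (checkT_node (checkT_node (checkT_node gDA1_21 gDA1_22) gDA1_23) (checkT_node (checkT_node (checkT_node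 gDA1_24 (checkT_node gDA1_25 gDA1_26)) (checkT_node gDA1_27 (checkT_node gDA1_28 (checkT_node gDA1_29 (checkT_node (checkT_node (checkT_node (checkT_node gDA1_30 (checkT_node gDA1_31 (checkT_node gDA1_32 gDA1_33))) gDA1_34) (checkT_node gDA1_35 (checkT_node gDA1_36 (checkT_node (checkT_node (checkT_node gDA1_37 (checkT_node gDA1_38 (checkT_node gDA1_39 (checkT_node gDA1_40 gDA1_41)))) gDA1_42) (checkT_node gDA1_43 (checkT_node gDA1_44 gDA1_45)))))) gDA1_46))))) (checkT_node gDA1_47 (checkT_node gDA1_48 (checkT_node gDA1_49 (checkT_node (checkT_node gDA1_50 (checkT_node gDA1_51 (checkT_node gDA1_52 gDA1_53))) gDA1_54))))))) (checkT_node gDA1_55 gDA1_56)))⟩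

theorem hDA2 : ∃ T, checkT (eChA iD) (c 1) [11, 11, 9, 23] T rDA2 = true :=
  ⟨_, gDA2_0⟩

theorem hDB1 : ∃ T, checkT (eChB1 iD) (c 1) [25, 11, 9, 23] T rDB1 = true :=
  ⟨_, gDB1_0⟩

theorem hDB2 : ∃ T, checkT (eChB2 iD) (c 1) [25, 11, 11, 23] T rDB2 = true :=
  ⟨_, (checkT_node gDB2_0 gDB2_1)⟩

end Vale.Agent.Lib.P154M
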