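import Vale.Agent.Lib.P154M.FinE

set_option linter.defProp false

/-!
Kernel checks: final polynomial.
-/

namespace Vale.Agent.Lib.P154M

open Vale.Agent.Lib.Common.Kron Vale.Agent.Lib.Common.Kron.PE

set_option maxRecDepth 100000 in
def gPA1_12 : checkT (eChA iP) (c 1) [11, 11, 9, 9] .leaf ((((rPA1.upH 0).upH 1).upH 3).upH 2) = true := by
  decide +kernel

set_option maxRecDepth 100000 in
def gPA2_0 : checkT (eChA iP) (c 1) [11, 11, 9, 9] .leaf rPA2 = true := by
  decide +kernel

set_option maxRecDepth 100000 in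
def gPB1_0 : checkT (eChB1 iP) (c 1) [25, 11, 9, 9] .leaf rPB1 = true := by
  decide +kernel

set_option maxRecDepth 100000 in
def gPB2_0 : checkT (eChB2 iP) (c 1) [25, 11, 11, 9] (.node 2 (.node 2 .leaf .leaf) .leaf) rPB2 = true := by
  decide +kernel

end Vale.Agent.Lib.P154M
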