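import Vale.Agent.Lib.P154M.CkFP0
import Vale.Agent.Lib.P154M.CkFP1
import Vale.Agent.Lib.P154M.CkFP2

/-!
Kernel checks: final polynomial, assembled.
-/

namespace Vale.Agent.Lib.P154M

open Vale.Agent.Lib.Common.Kron Vale.Agent.Lib.Common.Kron.PE

theorem hPA1 : ∃ T, checkT (eChA iP) (c 1) [11, 11, 9, 9] T rPA1 = true :=
  ⟨_, (checkT_node (checkT_node (checkT_node (checkT_node (checkT_node gPA1_0 gPA1_1) (checkT_node gPA1_2 gPA1_3)) gPA1_4) gPA1_5) (checkT_node (checkT_node gPA1_6 gPA1_7) (checkT_node gPA1_8 (checkT_node (checkT_node (checkT_node gPA1_9 gPA1_10) gPA1_11) gPA1_12))))⟩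

theorem hPA2 : ∃ T, checkT (eChA iP) (c 1) [11, 11, 9, 9] T rPA2 = true :=
  ⟨_, gPA2_0⟩

theorem hPB1 : ∃ T, checkT (eChB1 iP) (c 1) [25, 11, 9, 9] T rPB1 = true :=
  ⟨_, gPB1_0⟩

theorem hPB2 : ∃ T, checkT (eChB2 iP) (c 1) [25, 11, 11, 9] T rPB2 = true :=
  ⟨_, gPB2_0⟩

end Vale.Agent.Lib.P154M
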