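import Vale.Agent.Lib.P154M.FinG
import Vale.Agent.Lib.P154M.CheckFP
import Vale.Agent.Lib.P154M.CheckFD

/-!
Nonnegativity of the final polynomial on the whole box, from the four charts.
-/

noncomputable section

namespace Vale.Agent.Lib.P154M

open Vale.Agent.Lib.Common.Kron Vale.Agent.Lib.Common.Kron.PE

theorem dT_pos : (0 : ℝ) < dT := by
  norm_num [dT]

/-- Closed interval membership from bounds. -/
theorem cmem_of {I : Iv} {x a b : ℝ} (ha : (I.lo : ℝ) / I.den = a) (hb : (I.hi : ℝ) / I.den = b)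
    (h0 : a ≤ x) (h1 : x ≤ b) : I.cmem x := by
  constructor
  · rw [ha]
    exact h0
  · rw [hb]
    exact h1

section charts
variable {I : PE} {i : ℝ → ℝ} (hI : ∀ x0 x1 x2 x3, evalR (xv x0 x1 x2 x3) I = i x3)
  {m : Iv} (hm : 0 < m.den) (hml : m.lo < m.hi) {radA radB1 radB2 : List ℕ}
  (hA1 : ∃ T, checkT (eChA I) (c 1) radA T ⟨⟨1, 4, 4⟩, ⟨1, 4, 2⟩, ⟨0, 9, 4⟩, m⟩ = true)
  (hA2 : ∃ T, checkT (eChA I) (c 1) radA T ⟨⟨0, 1, 4⟩, ⟨1, 4, 2⟩, ⟨1, 36, 16⟩, m⟩ = true)
  (hB1 : ∃ T, checkT (eChB1 I) (c 1) radB1 T ⟨⟨0, 1, 4⟩, ⟨1, 4, 2⟩, ⟨0, 1, 16⟩, m⟩ = true)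
  (hB2 : ∃ T, checkT (eChB2 I) (c 1) radB2 T ⟨⟨0, 1, 4⟩, ⟨1, 4, 2⟩, ⟨0, 4, 1⟩, m⟩ = true)
include hI hm hml hA1 hA2 hB1 hB2

theorem mH_charts {r t w u : ℝ} (hr0 : 0 ≤ r) (hr1 : r ≤ 1) (ht0 : 1 / 2 ≤ t) (ht1 : t ≤ 2)
    (hw0 : 0 ≤ w) (hw1 : w ≤ 9 / 4) (hu : m.cmem u) :
    0 ≤ mH (i u) u w (s3R r t) (yyR r t) := by
  have htc : Iv.cmem ⟨1, 4, 2⟩ t := cmem_of (by norm_num) (by norm_num) ht0 ht1
  rcases le_total (1 / 4) r with h1 | h1
  · obtain ⟨T, hT⟩ := hA1
    have e := tree_nonneg (x0 := r) (x1 := t) (x2 := w) (x3 := u) ⟨by norm_num, by norm_num, by norm_num, hm⟩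
      (by norm_num) (by norm_num) (by norm_num) hml hT
      (cmem_of (by norm_num) (by norm_num) h1 hr1) htc
      (cmem_of (by norm_num) (by norm_num) hw0 hw1) hu (one_pos_eval _)
    simp only [eChA, eval_eFin, evalR, xv, hI] at e
    exact nonneg_of_mul_nonneg_right e dT_pos
  · rcases le_total (1 / 16) w with h2 | h2
    · obtain ⟨T, hT⟩ := hA2
      have e := tree_nonneg (x0 := r) (x1 := t) (x2 := w) (x3 := u)
        ⟨by norm_num, by norm_num, by norm_num, hm⟩
        (by norm_num) (by norm_num) (by norm_num) hml hT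
        (cmem_of (by norm_num) (by norm_num) hr0 h1) htc
        (cmem_of (by norm_num) (by norm_num) h2 hw1) hu (one_pos_eval _)
      simp only [eChA, eval_eFin, evalR, xv, hI] at e
      exact nonneg_of_mul_nonneg_right e dT_pos
    · rcases le_total w (r ^ 2 / 16) with h3 | h3
      · -- first small chart
        obtain ⟨T, hT⟩ := hB1
        obtain ⟨τ, hτ0, hτ1, hτ⟩ : ∃ τ : ℝ, 0 ≤ τ ∧ τ ≤ 1 / 16 ∧ r ^ 2 * τ = w := by
          rcases eq_or_lt_of_le hr0 with h | h
          · refine ⟨0, le_rfl, by norm_num, ?_⟩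
            rw [← h] at h3
            have : w = 0 := le_antisymm (by simpa using h3) hw0
            rw [this]
            ring
          · have hr2 : 0 < r ^ 2 := by positivity
            refine ⟨w / r ^ 2, div_nonneg hw0 hr2.le, ?_, by field_simp⟩
            rw [div_le_iff₀ hr2]
            linarith
        have e := tree_nonneg (x0 := r) (x1 := t) (x2 := τ) (x3 := u)
          ⟨by norm_num, by norm_num, by norm_num, hm⟩
          (by norm_num) (by norm_num) (by norm_num) hml hT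
          (cmem_of (by norm_num) (by norm_num) hr0 h1) htc
          (cmem_of (by norm_num) (by norm_num) hτ0 hτ1) hu (one_pos_eval _)
        simp only [eChB1, eval_eFin, evalR, xv, hI, hτ] at e
        exact nonneg_of_mul_nonneg_right e dT_pos
      · -- second small chart
        obtain ⟨T, hT⟩ := hB2
        by_cases hw : w = 0
        · have hr : r = 0 := by
            have : r ^ 2 ≤ 0 := by
              rw [hw] at h3
              linarith
            have h5 : r ^ 2 = 0 := le_antisymm this (sq_nonneg r)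
            exact pow_eq_zero_iff (by norm_num) |>.1 h5
          have e := tree_nonneg (x0 := 0) (x1 := t) (x2 := 0) (x3 := u)
            ⟨by norm_num, by norm_num, by norm_num, hm⟩
            (by norm_num) (by norm_num) (by norm_num) hml hT
            (cmem_of (a := 0) (b := 1 / 4) (by norm_num) (by norm_num) le_rfl (by norm_num)) htc
            (cmem_of (a := 0) (b := 4) (by norm_num) (by norm_num) le_rfl (by norm_num)) hu (one_pos_eval _)
          simp only [eChB2, eval_eFin, evalR, xv, hI] at e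
          rw [hw, hr]
          have e2 := nonneg_of_mul_nonneg_right e dT_pos
          simpa using e2
        · have hw' : 0 < w := lt_of_le_of_ne hw0 (Ne.symm hw)
          set ν := Real.sqrt w with hν
          have hν0 : 0 < ν := Real.sqrt_pos.2 hw'
          have hν2 : ν ^ 2 = w := Real.sq_sqrt hw0
          have hν1 : ν ≤ 1 / 4 := by
            rw [hν]
            apply Real.sqrt_le_iff.2
            constructor
            · norm_num
            · norm_num
              linarith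
          set σ := r / ν with hσ
          have hσ0 : 0 ≤ σ := div_nonneg hr0 hν0.le
          have hσν : ν * σ = r := by
            rw [hσ]
            field_simp
          have hσ1 : σ ≤ 4 := by
            rw [hσ, div_le_iff₀ hν0]
            have : r ^ 2 ≤ (4 * ν) ^ 2 := by
              rw [mul_pow, hν2]
              linarith
            exact abs_le_of_sq_le_sq' this (by positivity) |>.2
          have e := tree_nonneg (x0 := ν) (x1 := t) (x2 := σ) (x3 := u)
            ⟨by norm_num, by norm_num, by norm_num, hm⟩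
            (by norm_num) (by norm_num) (by norm_num) hml hT
            (cmem_of (by norm_num) (by norm_num) hν0.le hν1) htc
            (cmem_of (by norm_num) (by norm_num) hσ0 hσ1) hu (one_pos_eval _)
          simp only [eChB2, eval_eFin, evalR, xv, hI, hσν, hν2] at e
          exact nonneg_of_mul_nonneg_right e dT_pos

end charts

/-- Nonnegativity for the Poisson family. -/
theorem mH_P {r t w u : ℝ} (hr0 : 0 ≤ r) (hr1 : r ≤ 1) (ht0 : 1 / 2 ≤ t) (ht1 : t ≤ 2)
    (hw0 : 0 ≤ w) (hw1 : w ≤ 9 / 4) (hu0 : 0 ≤ u) (hu1 : u ≤ 4 / 9) :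
    0 ≤ mH 0 u w (s3R r t) (yyR r t) :=
  mH_charts (I := iP) (i := fun _ => 0) (m := ⟨0, 4, 9⟩) (by simp [iP, evalR]) (by norm_num)
    (by norm_num) hPA1 hPA2 hPB1 hPB2 hr0 hr1 ht0 ht1 hw0 hw1
    (cmem_of (by norm_num) (by norm_num) hu0 hu1)

/-- Nonnegativity for the regular family. -/
theorem mH_D {r t w u : ℝ} (hr0 : 0 ≤ r) (hr1 : r ≤ 1) (ht0 : 1 / 2 ≤ t) (ht1 : t ≤ 2)
    (hw0 : 0 ≤ w) (hw1 : w ≤ 9 / 4) (hu0 : 0 ≤ u) (hu1 : u ≤ 9 / 20) :
    0 ≤ mH (u ^ 2) u w (s3R r t) (yyR r t) :=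
  mH_charts (I := iD) (i := fun u => u ^ 2) (m := ⟨0, 9, 20⟩) (by simp [iD, evalR, xv]) (by norm_num)
    (by norm_num) hDA1 hDA2 hDB1 hDB2 hr0 hr1 ht0 ht1 hw0 hw1
    (cmem_of (by norm_num) (by norm_num) hu0 hu1)

end Vale.Agent.Lib.P154M
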