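import Vale.Agent.Lib.P154M.CkA0
import Vale.Agent.Lib.P154M.CkA1
import Vale.Agent.Lib.P154M.CkA2
import Vale.Agent.Lib.P154M.CkA3
import Vale.Agent.Lib.P154M.CkA4

/-!
Kernel checks: pointwise bounds in the chart, assembled.
-/

namespace Vale.Agent.Lib.P154M

open Vale.Agent.Lib.Common.Kron Vale.Agent.Lib.Common.Kron.PE

theorem hHGT : ∃ T, checkT (eHG chX1 chX2 chX3) (c 1) [61, 61, 1, 1] T root2 = true :=
  ⟨_, (checkT_node hHG_0 (checkT_node hHG_1 (checkT_node hHG_2 hHG_3)))⟩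

theorem hHU0T : ∃ T, checkT (eHU0 chX1 chX2 chX3) regM [61, 61, 1, 1] T root2 = true :=
  ⟨_, (checkT_node hHU0_0 (checkT_node hHU0_1 (checkT_node hHU0_2 (checkT_node (checkT_node hHU0_3 hHU0_4) (checkT_node hHU0_5 (checkT_node (checkT_node (checkT_node hHU0_6 (checkT_node hHU0_7 (checkT_node hHU0_8 (checkT_node hHU0_9 (checkT_node hHU0_10 (checkT_node hHU0_11 (checkT_node hHU0_12 hHU0_13))))))) (checkT_node hHU0_14 (checkT_node (checkT_node hHU0_15 (checkT_node hHU0_16 (checkT_node hHU0_17 hHU0_18))) (checkT_node (checkT_node (checkT_node hHU0_19 (checkT_node hHU0_20 (checkT_node hHU0_21 hHU0_22))) (checkT_node (checkT_node (checkT_node hHU0_23 hHU0_24) hHU0_25) hHU0_26)) (checkT_node (checkT_node (checkT_node hHU0_27 hHU0_28) hHU0_29) hHU0_30))))) (checkT_node (checkT_node hHU0_31 (checkT_node (checkT_node (checkT_node (checkT_node hHU0_32 hHU0_33) hHU0_34) hHU0_35) hHU0_36)) hHU0_37)))))))⟩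

theorem hHU1T : ∃ T, checkT (eHU1 chX1 chX2 chX3) regM [61, 61, 1, 1] T root2 = true :=
  ⟨_, (checkT_node hHU1_0 (checkT_node hHU1_1 (checkT_node hHU1_2 (checkT_node hHU1_3 (checkT_node hHU1_4 (checkT_node (checkT_node (checkT_node hHU1_5 (checkT_node hHU1_6 (checkT_node hHU1_7 (checkT_node hHU1_8 (checkT_node hHU1_9 (checkT_node hHU1_10 (checkT_node hHU1_11 hHU1_12))))))) (checkT_node hHU1_13 (checkT_node (checkT_node hHU1_14 (checkT_node hHU1_15 hHU1_16)) (checkT_node (checkT_node (checkT_node hHU1_17 hHU1_18) (checkT_node (checkT_node (checkT_node hHU1_19 hHU1_20) hHU1_21) hHU1_22)) (checkT_node (checkT_node (checkT_node hHU1_23 hHU1_24) hHU1_25) hHU1_26))))) (checkT_node (checkT_node hHU1_27 (checkT_node (checkT_node (checkT_node hHU1_28 hHU1_29) hHU1_30) hHU1_31)) hHU1_32)))))))⟩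

theorem hHU3T : ∃ T, checkT (eHU3 chX1 chX2 chX3) regM [61, 61, 1, 1] T root2 = true :=
  ⟨_, (checkT_node hHU3_0 (checkT_node hHU3_1 (checkT_node hHU3_2 (checkT_node hHU3_3 (checkT_node (checkT_node hHU3_4 (checkT_node hHU3_5 (checkT_node hHU3_6 hHU3_7))) hHU3_8)))))⟩

theorem hHET : ∃ T, checkT (eHE chX1 chX2 chX3) regM [37, 37, 1, 1] T root2 = true :=
  ⟨_, hHE_0⟩

end Vale.Agent.Lib.P154M
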