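import Vale.Agent.Lib.P154M.Poly2

/-!
Coefficient data: the approximating polynomials, in the variables `3 * s` and `y`.
-/

namespace Vale.Agent.Lib.P154M

/-- Common denominator. -/
def gD : ℕ := 24300000

/-- Coefficients. -/
def gGL : L2 := [(8100000, 1, 0), (378054, 2, 0), (563679, 1, 1), (-7981821, 0, 2), (26982, 3, 0), (703512, 2, 1), (4176603, 1, 2), (-47484, 4, 0), (-3524715, 0, 3), (-283581, 3, 1), (-383238, 2, 2), (20499, 5, 0)]

/-- Coefficients. -/
def gU0L : L2 := [(16200000, 0, 1), (-938169, 2, 0), (4992597, 1, 1), (-8294076, 0, 2), (-386820, 3, 0), (7488099, 2, 1), (18262746, 1, 2), (227526, 4, 0), (-53863380, 0, 3), (-9695187, 3, 1), (-72276813, 2, 2), (-766124, 5, 0)]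

/-- Coefficients. -/
def gU1L : L2 := [(-168750, 0, 1), (-44874, 2, 0), (138348, 1, 1), (-626697, 0, 2), (-30096, 3, 0), (1052136, 2, 1), (3794607, 1, 2), (30183, 4, 0), (-10022292, 0, 3), (-1767411, 3, 1), (-12158451, 2, 2), (-103200, 5, 0)]

/-- Coefficients. -/
def gU3L : L2 := [(4050000, 1, 0), (-8100000, 0, 1), (683397, 2, 0), (-2444823, 1, 1), (3660309, 0, 2), (219762, 3, 0), (-4118418, 2, 1), (-10083447, 1, 2), (-166437, 4, 0), (34367247, 0, 3), (5813550, 3, 1), (39304710, 2, 2), (471238, 5, 0)]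

end Vale.Agent.Lib.P154M
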