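import Vale.Agent.Lib.P154M.Data

/-!
The mean functions for the exponents (4,1,1)/6, (3,2,1)/6, (2,2,2)/6 and their values in the chart.
-/

noncomputable section

namespace Vale.Agent.Lib.P154M

/-- The exponent `n / 6`. -/
def ex (n : ℕ) : ℝ := (n : ℝ) / 6

/-- Symmetrised mean for the exponent (4,1,1)/6. -/
def f1 (a b c : ℝ) : ℝ :=
  (a ^ ex 4 * b ^ ex 1 * c ^ ex 1 + b ^ ex 4 * a ^ ex 1 * c ^ ex 1 + c ^ ex 4 * a ^ ex 1 * b ^ ex 1) / 3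

/-- Symmetrised mean for the exponent (3,2,1)/6. -/
def f2 (a b c : ℝ) : ℝ :=
  (a ^ ex 3 * b ^ ex 2 * c ^ ex 1 + a ^ ex 3 * c ^ ex 2 * b ^ ex 1 + b ^ ex 3 * a ^ ex 2 * c ^ ex 1
    + b ^ ex 3 * c ^ ex 2 * a ^ ex 1 + c ^ ex 3 * a ^ ex 2 * b ^ ex 1
    + c ^ ex 3 * b ^ ex 2 * a ^ ex 1) / 6

/-- Symmetrised mean for the exponent (2,2,2)/6. -/
def f3 (a b c : ℝ) : ℝ := a ^ ex 2 * b ^ ex 2 * c ^ ex 2

/-- The three defects. -/
def ph1 (a b c : ℝ) : ℝ := 1 - f1 a b c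
/-- The three defects. -/
def ph2 (a b c : ℝ) : ℝ := 1 - f2 a b c
/-- The three defects. -/
def ph3 (a b c : ℝ) : ℝ := 1 - f3 a b c

/-- The pointwise Lyapunov function. -/
def ell (a b c : ℝ) : ℝ := -18 * ph1 a b c + 75 * ph2 a b c - 213 / 4 * ph3 a b c

/-- Aggregate of the differences. -/
def eE0 (a b c : ℝ) : ℝ := -18 * ph1 a b c + 75 * ph2 a b c - 221 / 4 * ph3 a b c

/-- Aggregate of the differences. -/
def eE1 (a b c : ℝ) : ℝ := -(9 / 2) * ph1 a b c + 25 / 4 * ph2 a b c - 113 / 48 * ph3 a b c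

/-- Difference for the first exponent. -/
def ee1 (a b c : ℝ) : ℝ := ph1 a b c - 3 / 4 * ph3 a b c

/-- Difference for the second exponent. -/
def ee2 (a b c : ℝ) : ℝ := ph2 a b c - 11 / 12 * ph3 a b c

/-- Second moment. -/
def sS (a b c : ℝ) : ℝ := ((a - 1) ^ 2 + (b - 1) ^ 2 + (c - 1) ^ 2) / 3

/-- Third moment. -/
def yS (a b c : ℝ) : ℝ := ((a - 1) ^ 3 + (b - 1) ^ 3 + (c - 1) ^ 3) / 3

theorem f1_swap12 (a b c : ℝ) : f1 b a c = f1 a b c := by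
  unfold f1
  ring
theorem f1_swap23 (a b c : ℝ) : f1 a c b = f1 a b c := by
  unfold f1
  ring
theorem f2_swap12 (a b c : ℝ) : f2 b a c = f2 a b c := by
  unfold f2
  ring
theorem f2_swap23 (a b c : ℝ) : f2 a c b = f2 a b c := by
  unfold f2
  ring
theorem f3_swap12 (a b c : ℝ) : f3 b a c = f3 a b c := by
  unfold f3
  ring
theorem f3_swap23 (a b c : ℝ) : f3 a c b = f3 a b c := by
  unfold f3
  ring
theorem sS_swap12 (a b c : ℝ) : sS b a c = sS a b c := by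
  unfold sS
  ring
theorem sS_swap23 (a b c : ℝ) : sS a c b = sS a b c := by
  unfold sS
  ring
theorem yS_swap12 (a b c : ℝ) : yS b a c = yS a b c := by
  unfold yS
  ring
theorem yS_swap23 (a b c : ℝ) : yS a c b = yS a b c := by
  unfold yS
  ring

/-- Reduction to sorted triples. -/
theorem sym3 (P : ℝ → ℝ → ℝ → Prop) (h12 : ∀ a b c, P a b c → P b a c)
    (h23 : ∀ a b c, P a b c → P a c b) (hs : ∀ a b c, a ≤ b → b ≤ c → P a b c) (a b c : ℝ) :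
    P a b c := by
  rcases le_total a b with h1 | h1 <;> rcases le_total b c with h2 | h2 <;>
    rcases le_total a c with h3 | h3
  · exact hs a b c h1 h2
  · exact hs a b c h1 h2
  · exact h23 _ _ _ (hs a c b h3 h2)
  · exact h23 _ _ _ (h12 _ _ _ (hs c a b h3 h1))
  · exact h12 _ _ _ (hs b a c h1 h3)
  · exact h12 _ _ _ (h23 _ _ _ (hs b c a h2 h3))
  · exact h23 _ _ _ (h12 _ _ _ (h23 _ _ _ (hs c b a h2 h1)))
  · exact h23 _ _ _ (h12 _ _ _ (h23 _ _ _ (hs c b a h2 h1)))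

theorem rp6 {k X : ℝ} (hk : 0 < k) (hX : 0 ≤ X) (n : ℕ) :
    (k * X ^ 6) ^ ex n = k ^ ex n * X ^ n := by
  rw [Real.mul_rpow hk.le (pow_nonneg hX 6)]
  congr 1
  rw [← Real.rpow_natCast X 6, ← Real.rpow_mul hX, ex]
  have : ((6 : ℕ) : ℝ) * ((n : ℝ) / 6) = n := by
    push_cast
    ring
  rw [this, Real.rpow_natCast]

theorem rp_sum {k : ℝ} (hk : 0 < k) (n1 n2 n3 : ℕ) (h : n1 + n2 + n3 = 6) :
    k ^ ex n1 * k ^ ex n2 * k ^ ex n3 = k := by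
  rw [← Real.rpow_add hk, ← Real.rpow_add hk]
  have : ex n1 + ex n2 + ex n3 = 1 := by
    unfold ex
    have h' : ((n1 : ℝ) + n2 + n3) = 6 := by exact_mod_cast h
    field_simp
    linarith
  rw [this, Real.rpow_one]

theorem mono_val {k X Y Z : ℝ} (hk : 0 < k) (hX : 0 ≤ X) (hY : 0 ≤ Y) (hZ : 0 ≤ Z)
    (n1 n2 n3 : ℕ) (h : n1 + n2 + n3 = 6) :
    (k * X ^ 6) ^ ex n1 * (k * Y ^ 6) ^ ex n2 * (k * Z ^ 6) ^ ex n3
      = k * (X ^ n1 * Y ^ n2 * Z ^ n3) := by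
  rw [rp6 hk hX, rp6 hk hY, rp6 hk hZ]
  have := rp_sum hk n1 n2 n3 h
  calc k ^ ex n1 * X ^ n1 * (k ^ ex n2 * Y ^ n2) * (k ^ ex n3 * Z ^ n3)
      = (k ^ ex n1 * k ^ ex n2 * k ^ ex n3) * (X ^ n1 * Y ^ n2 * Z ^ n3) := by ring
    _ = _ := by rw [this]

section values
variable {k X Y Z : ℝ}

theorem f1_val (hk : 0 < k) (hX : 0 ≤ X) (hY : 0 ≤ Y) (hZ : 0 ≤ Z) :
    f1 (k * X ^ 6) (k * Y ^ 6) (k * Z ^ 6)
      = k * ((X * (Y * Z)) * (X ^ 3 + (Y ^ 3 + Z ^ 3))) / 3 := by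
  unfold f1
  have h1 := mono_val hk hX hY hZ 4 1 1 rfl
  have h2 := mono_val hk hY hX hZ 4 1 1 rfl
  have h3 := mono_val hk hZ hX hY 4 1 1 rfl
  rw [h1, h2, h3]
  ring

theorem f2_val (hk : 0 < k) (hX : 0 ≤ X) (hY : 0 ≤ Y) (hZ : 0 ≤ Z) :
    f2 (k * X ^ 6) (k * Y ^ 6) (k * Z ^ 6)
      = k * ((X * (Y * Z)) * (X ^ 2 * (Y + Z) + (Y ^ 2 * (X + Z) + Z ^ 2 * (X + Y)))) / 6 := by
  unfold f2
  have h1 := mono_val hk hX hY hZ 3 2 1 rfl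
  have h2 := mono_val hk hX hZ hY 3 2 1 rfl
  have h3 := mono_val hk hY hX hZ 3 2 1 rfl
  have h4 := mono_val hk hY hZ hX 3 2 1 rfl
  have h5 := mono_val hk hZ hX hY 3 2 1 rfl
  have h6 := mono_val hk hZ hY hX 3 2 1 rfl
  rw [h1, h2, h3, h4, h5, h6]
  ring

theorem f3_val (hk : 0 < k) (hX : 0 ≤ X) (hY : 0 ≤ Y) (hZ : 0 ≤ Z) :
    f3 (k * X ^ 6) (k * Y ^ 6) (k * Z ^ 6) = k * (X * (Y * Z)) ^ 2 := by
  unfold f3
  have h1 := mono_val hk hX hY hZ 2 2 2 rfl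
  rw [h1]
  ring

end values

/-- The chart on sorted triples. -/
theorem chart_sorted {a b c : ℝ} (ha : 0 ≤ a) (hab : a ≤ b) (hbc : b ≤ c) (hs : a + b + c = 3) :
    ∃ p q : ℝ, 0 ≤ p ∧ p ≤ 1 ∧ 0 ≤ q ∧ q ≤ 1 ∧
      a = 3 / ((p * q) ^ 6 + (q ^ 6 + 1 ^ 6)) * (p * q) ^ 6 ∧
      b = 3 / ((p * q) ^ 6 + (q ^ 6 + 1 ^ 6)) * q ^ 6 ∧
      c = 3 / ((p * q) ^ 6 + (q ^ 6 + 1 ^ 6)) * 1 ^ 6 := by
  have hc : 0 < c := by linarith
  have hb0 : 0 ≤ b := le_trans ha hab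
  have root : ∀ x : ℝ, 0 ≤ x → (x ^ ((1 : ℝ) / 6)) ^ 6 = x := by
    intro x hx
    rw [← Real.rpow_natCast, ← Real.rpow_mul hx]
    norm_num
  have mono1 : ∀ x : ℝ, 0 ≤ x → x ≤ 1 → x ^ ((1 : ℝ) / 6) ≤ 1 := by
    intro x h0 h1
    exact Real.rpow_le_one h0 h1 (by norm_num)
  set q := (b / c) ^ ((1 : ℝ) / 6) with hq
  have hbc' : 0 ≤ b / c := div_nonneg hb0 hc.le
  have hq6 : q ^ 6 = b / c := root _ hbc'
  by_cases hb : b = 0
  · have ha0 : a = 0 := le_antisymm (hb ▸ hab) ha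
    have hc3 : c = 3 := by linarith
    refine ⟨0, 0, le_refl _, zero_le_one, le_refl _, zero_le_one, ?_, ?_, ?_⟩
    · norm_num [ha0]
    · norm_num [hb]
    · norm_num [hc3]
  · have hb' : 0 < b := lt_of_le_of_ne hb0 (Ne.symm hb)
    set p := (a / b) ^ ((1 : ℝ) / 6) with hp
    have hab' : 0 ≤ a / b := div_nonneg ha hb'.le
    have hp6 : p ^ 6 = a / b := root _ hab'
    have hpq : (p * q) ^ 6 = a / c := by
      rw [mul_pow, hp6, hq6]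
      field_simp
    have hM : (p * q) ^ 6 + (q ^ 6 + 1 ^ 6) = 3 / c := by
      rw [hpq, hq6, ← hs]
      field_simp
      ring
    refine ⟨p, q, Real.rpow_nonneg hab' _, mono1 _ hab' ((div_le_one hb').2 hab),
      Real.rpow_nonneg hbc' _, mono1 _ hbc' ((div_le_one hc).2 hbc), ?_, ?_, ?_⟩
    · rw [hM, hpq]
      field_simp
    · rw [hM, hq6]
      field_simp
    · rw [hM]
      field_simp

end Vale.Agent.Lib.P154M
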