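import Vale.Agent.Lib.P154M.Forms

/-!
The final polynomial in the variables `rho, t, v, mu`.
-/

noncomputable section

namespace Vale.Agent.Lib.P154M

open Vale.Agent.Lib.Common.Kron Vale.Agent.Lib.Common.Kron.PE

/-- The coefficient product. -/
def bB (i : ℝ) : ℕ → ℝ
  | 0 => 1
  | (k + 1) => bB i k * (1 - (k + 1 : ℝ) * i)

/-- Truncation of the recursion function: `n` terms. -/
def gP (i : ℝ) : ℕ → ℝ → ℝ
  | 0, _ => 0
  | (n + 1), w => gP i n w + (-1) ^ n * bB i n / (n + 1).factorial * w ^ (n + 1)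

/-- Derivative of the truncation. -/
def dP (i : ℝ) : ℕ → ℝ → ℝ
  | 0, _ => 0
  | (n + 1), w => dP i n w + (-1) ^ n * bB i n / n.factorial * w ^ n

/-- Expression for the coefficient product. -/
def eB (I : PE) : ℕ → PE
  | 0 => c 1
  | (k + 1) => PE.mul (eB I k) (PE.add (c 1) (neg (PE.mul (c (k + 1)) I)))

/-- The sign. -/
def sgE (n : ℕ) (e : PE) : PE := if n % 2 = 0 then e else neg e

/-- Expression: `n! * D^n * gP i n (N / D)`. -/
def eP (I N D : PE) : ℕ → PE
  | 0 => c 0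
  | (n + 1) =>
    PE.add (PE.mul (c (n + 1)) (PE.mul D (eP I N D n)))
      (sgE n (PE.mul (eB I n) (PE.pow N (n + 1))))

/-- Expression: `n! * D^n * dP i (n+1) (N / D)`. -/
def eDP (I N D : PE) : ℕ → PE
  | 0 => c 1
  | (n + 1) =>
    PE.add (PE.mul (c (n + 1)) (PE.mul D (eDP I N D n)))
      (sgE (n + 1) (PE.mul (eB I (n + 1)) (PE.pow N (n + 1))))

theorem eval_sgE (x : ℕ → ℝ) (n : ℕ) (e : PE) :
    evalR x (sgE n e) = (-1) ^ n * evalR x e := by
  unfold sgE
  split_ifs with h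
  · rw [Even.neg_one_pow (Nat.even_iff.2 h), one_mul]
  · rw [Odd.neg_one_pow (Nat.odd_iff.2 (by omega))]
    simp [evalR]

theorem eval_eB (x : ℕ → ℝ) (I : PE) (k : ℕ) : evalR x (eB I k) = bB (evalR x I) k := by
  induction k with
  | zero => simp [eB, bB, evalR]
  | succ k ih =>
    simp only [eB, bB, evalR, ih]
    push_cast
    ring

theorem eval_eP (x : ℕ → ℝ) (I N D : PE) (hD : evalR x D ≠ 0) (n : ℕ) :
    evalR x (eP I N D n)
      = n.factorial * evalR x D ^ n * gP (evalR x I) n (evalR x N / evalR x D) := by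
  induction n with
  | zero => simp [eP, gP, evalR]
  | succ n ih =>
    simp only [eP, gP, evalR, ih, eval_sgE, eval_eB, Nat.factorial_succ]
    have hf : ((n + 1) * n.factorial : ℕ) ≠ 0 :=
      Nat.mul_ne_zero (Nat.succ_ne_zero _) (Nat.factorial_ne_zero _)
    have hf' : (((n + 1) * n.factorial : ℕ) : ℝ) ≠ 0 := by exact_mod_cast hf
    rw [div_pow]
    field_simp
    push_cast
    ring

theorem eval_eDP (x : ℕ → ℝ) (I N D : PE) (hD : evalR x D ≠ 0) (n : ℕ) :
    evalR x (eDP I N D n)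
      = n.factorial * evalR x D ^ n * dP (evalR x I) (n + 1) (evalR x N / evalR x D) := by
  induction n with
  | zero => simp [eDP, dP, evalR, bB]
  | succ n ih =>
    rw [dP]
    simp only [eDP, evalR, ih, eval_sgE, eval_eB, Nat.factorial_succ]
    have hf : ((n + 1) * n.factorial : ℕ) ≠ 0 :=
      Nat.mul_ne_zero (Nat.succ_ne_zero _) (Nat.factorial_ne_zero _)
    have hf' : (((n + 1) * n.factorial : ℕ) : ℝ) ≠ 0 := by exact_mod_cast hf
    rw [div_pow]
    field_simp
    push_cast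
    ring

/-- The multiplier. -/
def lamH (w : ℝ) : ℝ := 2 + w / 2 - 11 / 20 * w ^ 2 + w ^ 3 / 5

/-- The tangent coefficient at the second exponent. -/
def q2H (i w : ℝ) : ℝ := dP i 7 (11 * w / 12)
/-- The tangent coefficient at the first exponent. -/
def q1H (i w : ℝ) : ℝ := dP i 8 (3 * w / 4)
/-- Coefficient of the first aggregate. -/
def aaH (i w : ℝ) : ℝ := (3 * q2H i w - q1H i w) / 2
/-- Coefficient of the second aggregate. -/
def bbH (i w : ℝ) : ℝ := 6 * (q1H i w - q2H i w)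
/-- The constant term. -/
def fFH (i w : ℝ) : ℝ :=
  75 * gP i 7 (11 * w / 12) - 18 * gP i 8 (3 * w / 4) - 213 / 4 * gP i 8 w

/-- The final polynomial on the level of values of `3 s`, `y`. -/
def mH (i u w s3 yy : ℝ) : ℝ :=
  ev2 gGL s3 yy / gD - s3 ^ 2 / 9000 - 37 * u ^ 2 * s3 ^ 3 / 300000
    - aaH i w * (ev2u gU0L u s3 yy / gD)
    - bbH i w * (ev2u gU1L u s3 yy / gD)
    - lamH w * (ev2u gU3L u s3 yy / gD - w)
    - fFH i w

/-- `3 s` in the parametrisation. -/
def s3R (r t : ℝ) : ℝ := 2 * (r ^ 2 * (1 + (-t + t ^ 2)))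
/-- `y` in the parametrisation. -/
def yyR (r t : ℝ) : ℝ := r ^ 3 * (t * (t + -1))

/-- `3 s` in the parametrisation. -/
def eS3 (R T : PE) : PE :=
  PE.mul (c 2) (PE.mul (PE.pow R 2) (PE.add (c 1) (PE.add (neg T) (PE.pow T 2))))
/-- `y` in the parametrisation. -/
def eYY (R T : PE) : PE := PE.mul (PE.pow R 3) (PE.mul T (PE.add T (neg (c 1))))

theorem eval_eS3 (x : ℕ → ℝ) (R T : PE) : evalR x (eS3 R T) = s3R (evalR x R) (evalR x T) := by
  simp [eS3, evalR, s3R]

theorem eval_eYY (x : ℕ → ℝ) (R T : PE) : evalR x (eYY R T) = yyR (evalR x R) (evalR x T) := by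
  simp [eYY, evalR, yyR]

/-- Expression: `6! * 12^6 * q2H`. -/
def eQ2 (I V : PE) : PE := eDP I (PE.mul (c 11) V) (c 12) 6
/-- Expression: `7! * 4^7 * q1H`. -/
def eQ1 (I V : PE) : PE := eDP I (PE.mul (c 3) V) (c 4) 7

/-- Expression: `2 * 60197437440 * aaH`. -/
def eAA (I V : PE) : PE := PE.add (PE.mul (c 84) (eQ2 I V)) (neg (PE.mul (c 729) (eQ1 I V)))
/-- Expression: `60197437440 * bbH`. -/
def eBB (I V : PE) : PE :=
  PE.mul (c 6) (PE.add (PE.mul (c 729) (eQ1 I V)) (neg (PE.mul (c 28) (eQ2 I V))))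
/-- Expression: `20 * lamH`. -/
def eLam (V : PE) : PE :=
  PE.add (c 40) (PE.add (PE.mul (c 10) V) (PE.add (neg (PE.mul (c 11) (PE.pow V 2)))
    (PE.mul (c 4) (PE.pow V 3))))
/-- Expression: `5784 ... * fFH`. -/
def eFF (I V : PE) : PE :=
  PE.add (PE.mul (c 2400) (eP I (PE.mul (c 11) V) (c 12) 7))
    (PE.add (neg (PE.mul (c 39366) (eP I (PE.mul (c 3) V) (c 4) 8)))
      (neg (PE.mul (c 7632175104) (eP I V (c 1) 8))))

/-- The final expression, `2904... * mH`. -/
def eFin (I R T V U : PE) : PE :=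
  PE.add (PE.mul (c 120394874880) (pe2 (eS3 R T) (eYY R T) gGL))
  (PE.add (neg (PE.mul (c 325066162176000) (PE.pow (eS3 R T) 2)))
  (PE.add (neg (PE.mul (c 360823440015360) (PE.mul (PE.pow U 2) (PE.pow (eS3 R T) 3))))
  (PE.add (neg (PE.mul (eAA I V) (peMu U (eS3 R T) (eYY R T) gU0L)))
  (PE.add (neg (PE.mul (PE.mul (c 2) (eBB I V)) (peMu U (eS3 R T) (eYY R T) gU1L)))
  (PE.add (neg (PE.mul (PE.mul (c 6019743744) (eLam V))
      (PE.add (peMu U (eS3 R T) (eYY R T) gU3L) (neg (PE.mul (c gD) V)))))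
  (neg (PE.mul (c 506250) (eFF I V))))))))

/-- The scale of the final expression. -/
def dT : ℕ := 2925595459584000000

section evals
variable (x : ℕ → ℝ) (I R T V U : PE)

theorem eval_eQ2 : evalR x (eQ2 I V) = 2149908480 * q2H (evalR x I) (evalR x V) := by
  have := eval_eDP x I (PE.mul (c 11) V) (c 12) (by simp [evalR]) 6
  simp only [eQ2, this, q2H, evalR]
  norm_num [Nat.factorial]

theorem eval_eQ1 : evalR x (eQ1 I V) = 82575360 * q1H (evalR x I) (evalR x V) := by
  have := eval_eDP x I (PE.mul (c 3) V) (c 4) (by simp [evalR]) 7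
  simp only [eQ1, this, q1H, evalR]
  norm_num [Nat.factorial]

theorem eval_eAA : evalR x (eAA I V) = 120394874880 * aaH (evalR x I) (evalR x V) := by
  simp only [eAA, evalR, eval_eQ2, eval_eQ1, aaH]
  push_cast
  ring

theorem eval_eBB : evalR x (eBB I V) = 60197437440 * bbH (evalR x I) (evalR x V) := by
  simp only [eBB, evalR, eval_eQ2, eval_eQ1, bbH]
  push_cast
  ring

theorem eval_eLam : evalR x (eLam V) = 20 * lamH (evalR x V) := by
  simp only [eLam, evalR, lamH]
  push_cast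
  ring

theorem eval_eFF : evalR x (eFF I V) = 5778953994240 * fFH (evalR x I) (evalR x V) := by
  have h1 := eval_eP x I (PE.mul (c 11) V) (c 12) (by simp [evalR]) 7
  have h2 := eval_eP x I (PE.mul (c 3) V) (c 4) (by simp [evalR]) 8
  have h3 := eval_eP x I V (c 1) (by simp [evalR]) 8
  simp only [eFF, evalR, h1, h2, h3, fFH]
  norm_num [Nat.factorial]
  ring

theorem eval_eFin :
    evalR x (eFin I R T V U) = dT * mH (evalR x I) (evalR x U) (evalR x V)
      (s3R (evalR x R) (evalR x T)) (yyR (evalR x R) (evalR x T)) := by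
  simp only [eFin, evalR, eval_pe2, eval_peMu', eval_eS3, eval_eYY, eval_eAA, eval_eBB, eval_eLam,
    eval_eFF, mH, dT, gD]
  push_cast
  ring

end evals

end Vale.Agent.Lib.P154M
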