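import Vale.Agent.Lib.P154M.Fin

/-!
Expressions for the charts of the final polynomial.
-/

namespace Vale.Agent.Lib.P154M

open Vale.Agent.Lib.Common.Kron Vale.Agent.Lib.Common.Kron.PE

/-- Parameter for the Poisson family. -/
def iP : PE := c 0
/-- Parameter for the regular family. -/
def iD : PE := PE.pow (v 3) 2
/-- First chart. -/
def eChA (I : PE) : PE := eFin I (v 0) (v 1) (v 2) (v 3)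
/-- Second chart. -/
def eChB1 (I : PE) : PE := eFin I (v 0) (v 1) (PE.mul (PE.pow (v 0) 2) (v 2)) (v 3)
/-- Third chart. -/
def eChB2 (I : PE) : PE := eFin I (PE.mul (v 0) (v 2)) (v 1) (PE.pow (v 0) 2) (v 3)

/-- Root cell. -/
def rPA1 : Cell := ⟨⟨1, 4, 4⟩, ⟨1, 4, 2⟩, ⟨0, 9, 4⟩, ⟨0, 4, 9⟩⟩

/-- Root cell. -/
def rPA2 : Cell := ⟨⟨0, 1, 4⟩, ⟨1, 4, 2⟩, ⟨1, 36, 16⟩, ⟨0, 4, 9⟩⟩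

/-- Root cell. -/
def rPB1 : Cell := ⟨⟨0, 1, 4⟩, ⟨1, 4, 2⟩, ⟨0, 1, 16⟩, ⟨0, 4, 9⟩⟩

/-- Root cell. -/
def rPB2 : Cell := ⟨⟨0, 1, 4⟩, ⟨1, 4, 2⟩, ⟨0, 4, 1⟩, ⟨0, 4, 9⟩⟩

/-- Root cell. -/
def rDA1 : Cell := ⟨⟨1, 4, 4⟩, ⟨1, 4, 2⟩, ⟨0, 9, 4⟩, ⟨0, 9, 20⟩⟩

/-- Root cell. -/
def rDA2 : Cell := ⟨⟨0, 1, 4⟩, ⟨1, 4, 2⟩, ⟨1, 36, 16⟩, ⟨0, 9, 20⟩⟩

/-- Root cell. -/
def rDB1 : Cell := ⟨⟨0, 1, 4⟩, ⟨1, 4, 2⟩, ⟨0, 1, 16⟩, ⟨0, 9, 20⟩⟩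

/-- Root cell. -/
def rDB2 : Cell := ⟨⟨0, 1, 4⟩, ⟨1, 4, 2⟩, ⟨0, 4, 1⟩, ⟨0, 9, 20⟩⟩

end Vale.Agent.Lib.P154M
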