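import Vale.Agent.Lib.P154M.Fin

/-!
Truncations of the recursion functions `1 - (1 - w / d) ^ d` and `1 - exp (- w)`.
-/

noncomputable section

namespace Vale.Agent.Lib.P154M

open Filter Topology

/-! ### The alternating truncations of the binomial series -/

/-- Truncated binomial series. -/
def tT (d : ℕ) (x : ℝ) : ℕ → ℝ
  | 0 => 1
  | (n + 1) => tT d x n + (-1) ^ (n + 1) * (d.choose (n + 1) : ℝ) * x ^ (n + 1)

theorem tT_zero_d (x : ℝ) : ∀ n, tT 0 x n = 1
  | 0 => rfl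
  | (n + 1) => by
    simp only [tT, tT_zero_d x n]
    simp

theorem tT_succ_d (d : ℕ) (x : ℝ) : ∀ n, tT (d + 1) x (n + 1) = tT d x (n + 1) - x * tT d x n
  | 0 => by
    simp only [tT, Nat.choose_succ_succ]
    simp
    ring
  | (n + 1) => by
    have ih := tT_succ_d d x n
    have e1 : tT (d + 1) x (n + 1 + 1) = tT (d + 1) x (n + 1)
        + (-1) ^ (n + 1 + 1) * ((d + 1).choose (n + 1 + 1) : ℝ) * x ^ (n + 1 + 1) := rfl
    have e2 : tT d x (n + 1 + 1) = tT d x (n + 1)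
        + (-1) ^ (n + 1 + 1) * (d.choose (n + 1 + 1) : ℝ) * x ^ (n + 1 + 1) := rfl
    have e3 : tT d x (n + 1) = tT d x n + (-1) ^ (n + 1) * (d.choose (n + 1) : ℝ) * x ^ (n + 1) := rfl
    rw [e1, ih, e2, Nat.choose_succ_succ]
    rw [e3]
    push_cast
    ring

/-- The Bonferroni inequalities. -/
theorem bonf {x : ℝ} (h0 : 0 ≤ x) (h1 : x ≤ 1) :
    ∀ (n d : ℕ), 0 ≤ (-1) ^ (n + 1) * ((1 - x) ^ d - tT d x n)
  | 0, d => by
    have : (1 - x) ^ d ≤ 1 := pow_le_one₀ (by linarith) (by linarith)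
    simp only [tT, zero_add, pow_one]
    linarith
  | (n + 1), 0 => by
    rw [tT_zero_d]
    simp
  | (n + 1), (d + 1) => by
    have ih1 := bonf h0 h1 (n + 1) d
    have ih2 := bonf h0 h1 n d
    rw [tT_succ_d]
    have e : (-1 : ℝ) ^ (n + 1 + 1) * ((1 - x) ^ (d + 1) - (tT d x (n + 1) - x * tT d x n))
        = (-1) ^ (n + 1 + 1) * ((1 - x) ^ d - tT d x (n + 1))
          + x * ((-1) ^ (n + 1) * ((1 - x) ^ d - tT d x n)) := by
      rw [pow_succ (-1 : ℝ) (n + 1), pow_succ (1 - x) d]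
      ring
    rw [e]
    exact add_nonneg ih1 (mul_nonneg h0 ih2)

theorem descF_eq (d : ℕ) (hd : 0 < d) :
    ∀ n, (d.descFactorial (n + 1) : ℝ) = (d : ℝ) ^ (n + 1) * bB (1 / (d : ℝ)) n
  | 0 => by
    simp [bB, Nat.descFactorial]
  | (n + 1) => by
    have ih := descF_eq d hd n
    have hd' : (d : ℝ) ≠ 0 := by exact_mod_cast hd.ne'
    rw [Nat.descFactorial_succ]
    by_cases h : n + 1 ≤ d
    · push_cast [Nat.cast_sub h]
      rw [ih, bB]
      field_simp
      ring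
    · have h2 : d < n + 1 := by omega
      have h3 : d.descFactorial (n + 1) = 0 := Nat.descFactorial_eq_zero_iff_lt.2 h2
      rw [h3] at ih ⊢
      have h4 : bB (1 / (d : ℝ)) n = 0 := by
        have : (d : ℝ) ^ (n + 1) ≠ 0 := pow_ne_zero _ hd'
        push_cast at ih
        exact (mul_eq_zero.1 ih.symm).resolve_left this
      rw [bB, h4]
      simp

theorem choose_eq (d : ℕ) (hd : 0 < d) (n : ℕ) :
    (d.choose (n + 1) : ℝ) * (1 / (d : ℝ)) ^ (n + 1)
      = bB (1 / (d : ℝ)) n / ((n + 1).factorial : ℝ) := by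
  have h1 : ((d.choose (n + 1) : ℕ) : ℝ) * ((n + 1).factorial : ℝ) = (d.descFactorial (n + 1) : ℝ) := by
    rw [Nat.descFactorial_eq_factorial_mul_choose]
    push_cast
    ring
  have hd' : (d : ℝ) ≠ 0 := by exact_mod_cast hd.ne'
  have hf : ((n + 1).factorial : ℝ) ≠ 0 := by exact_mod_cast Nat.factorial_ne_zero _
  have h2 := descF_eq d hd n
  rw [← h1] at h2
  rw [eq_div_iff hf]
  calc (d.choose (n + 1) : ℝ) * (1 / (d : ℝ)) ^ (n + 1) * ((n + 1).factorial : ℝ)
      = ((d.choose (n + 1) : ℝ) * ((n + 1).factorial : ℝ)) * (1 / (d : ℝ)) ^ (n + 1) := by ring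
    _ = bB (1 / (d : ℝ)) n := by
      rw [h2, one_div, inv_pow]
      field_simp

theorem gP_eq_tT (d : ℕ) (hd : 0 < d) (w : ℝ) :
    ∀ n, gP (1 / (d : ℝ)) n w = 1 - tT d (w / d) n
  | 0 => by simp [gP, tT]
  | (n + 1) => by
    have ih := gP_eq_tT d hd w n
    simp only [gP, tT, ih]
    have e := choose_eq d hd n
    have e2 : (w / (d : ℝ)) ^ (n + 1) = (1 / (d : ℝ)) ^ (n + 1) * w ^ (n + 1) := by
      rw [← mul_pow]
      congr 1
      ring
    rw [e2]
    have e3 : (-1 : ℝ) ^ n * bB (1 / (d : ℝ)) n / ((n + 1).factorial : ℝ) * w ^ (n + 1)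
        = (-1) ^ n * ((d.choose (n + 1) : ℝ) * (1 / (d : ℝ)) ^ (n + 1)) * w ^ (n + 1) := by
      rw [e]
      ring
    rw [e3, pow_succ (-1 : ℝ) n]
    ring

/-- The upper truncation, regular case. -/
theorem dary_upper {d : ℕ} (hd : 0 < d) {w : ℝ} (h0 : 0 ≤ w) (h1 : w ≤ d) :
    1 - (1 - w / d) ^ d ≤ gP (1 / (d : ℝ)) 7 w := by
  have hd' : (0 : ℝ) < d := by exact_mod_cast hd
  have hx : w / d ≤ 1 := (div_le_one hd').2 h1
  have := bonf (div_nonneg h0 hd'.le) hx 7 d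
  rw [gP_eq_tT d hd]
  norm_num at this
  linarith

/-- The lower truncation, regular case. -/
theorem dary_lower {d : ℕ} (hd : 0 < d) {w : ℝ} (h0 : 0 ≤ w) (h1 : w ≤ d) :
    gP (1 / (d : ℝ)) 8 w ≤ 1 - (1 - w / d) ^ d := by
  have hd' : (0 : ℝ) < d := by exact_mod_cast hd
  have hx : w / d ≤ 1 := (div_le_one hd').2 h1
  have := bonf (div_nonneg h0 hd'.le) hx 8 d
  rw [gP_eq_tT d hd]
  norm_num at this
  linarith

theorem cont_bB (k : ℕ) : Continuous fun i : ℝ => bB i k := by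
  induction k with
  | zero => simpa [bB] using continuous_const
  | succ k ih =>
    simp only [bB]
    fun_prop

theorem cont_gP (n : ℕ) (w : ℝ) : Continuous fun i : ℝ => gP i n w := by
  induction n with
  | zero => simpa [gP] using continuous_const
  | succ n ih =>
    simp only [gP]
    have := cont_bB n
    fun_prop

theorem tendsto_inv_nat : Tendsto (fun n : ℕ => 1 / (n : ℝ)) atTop (𝓝 0) :=
  tendsto_one_div_atTop_nhds_zero_nat

theorem tendsto_G (w : ℝ) :
    Tendsto (fun n : ℕ => 1 - (1 - w / n) ^ n) atTop (𝓝 (1 - Real.exp (-w))) := by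
  have h := Real.tendsto_one_add_div_pow_exp (-w)
  have e : (fun n : ℕ => (1 + -w / (n : ℝ)) ^ n) = fun n : ℕ => (1 - w / (n : ℝ)) ^ n := by
    funext n
    congr 1
    ring
  rw [e] at h
  exact tendsto_const_nhds.sub h

/-- The upper truncation, Poisson case. -/
theorem poi_upper {w : ℝ} (h0 : 0 ≤ w) : 1 - Real.exp (-w) ≤ gP 0 7 w := by
  have h1 := tendsto_G w
  have h2 : Tendsto (fun n : ℕ => gP (1 / (n : ℝ)) 7 w) atTop (𝓝 (gP 0 7 w)) :=
    (cont_gP 7 w).continuousAt.tendsto.comp tendsto_inv_nat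
  refine le_of_tendsto_of_tendsto h1 h2 ?_
  filter_upwards [eventually_gt_atTop 0, eventually_ge_atTop (Nat.ceil w)] with n hn hn2
  exact dary_upper hn h0 ((Nat.le_ceil w).trans (by exact_mod_cast hn2))

/-- The lower truncation, Poisson case. -/
theorem poi_lower {w : ℝ} (h0 : 0 ≤ w) : gP 0 8 w ≤ 1 - Real.exp (-w) := by
  have h1 := tendsto_G w
  have h2 : Tendsto (fun n : ℕ => gP (1 / (n : ℝ)) 8 w) atTop (𝓝 (gP 0 8 w)) :=
    (cont_gP 8 w).continuousAt.tendsto.comp tendsto_inv_nat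
  refine le_of_tendsto_of_tendsto h2 h1 ?_
  filter_upwards [eventually_gt_atTop 0, eventually_ge_atTop (Nat.ceil w)] with n hn hn2
  exact dary_lower hn h0 ((Nat.le_ceil w).trans (by exact_mod_cast hn2))

/-! ### Second order -/

/-- Auxiliary sum. -/
def sS2 (w t : ℝ) : ℕ → ℝ
  | 0 => 0
  | (k + 1) => w * sS2 w t k + (k : ℝ) * t ^ (k - 1)

/-- Second order remainder. -/
def hH (i w t : ℝ) : ℕ → ℝ
  | 0 => 0
  | (n + 1) => hH i w t n - (-1) ^ n * bB i n / (n + 1).factorial * sS2 w t (n + 1)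

theorem mono_second (w t : ℝ) : ∀ k : ℕ,
    t ^ (k + 1) + (k + 1 : ℝ) * t ^ k * (w - t) - w ^ (k + 1) = - ((w - t) ^ 2 * sS2 w t (k + 1))
  | 0 => by
    simp [sS2]
  | (k + 1) => by
    have ih := mono_second w t k
    have e : sS2 w t (k + 1 + 1) = w * sS2 w t (k + 1) + ((k + 1 : ℕ) : ℝ) * t ^ k := by
      simp [sS2]
    rw [e]
    push_cast
    have e2 : (w - t) ^ 2 * (w * sS2 w t (k + 1) + (k + 1) * t ^ k)
        = w * ((w - t) ^ 2 * sS2 w t (k + 1)) + (w - t) ^ 2 * ((k + 1) * t ^ k) := by ring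
    have ih2 : (w - t) ^ 2 * sS2 w t (k + 1)
        = w ^ (k + 1) - t ^ (k + 1) - (k + 1 : ℝ) * t ^ k * (w - t) := by linarith
    rw [e2, ih2]
    ring

/-- The second order form of a truncation. -/
theorem gP_second (i w t : ℝ) : ∀ n : ℕ,
    gP i n t + dP i n t * (w - t) - gP i n w = (w - t) ^ 2 * hH i w t n
  | 0 => by simp [gP, dP, hH]
  | (n + 1) => by
    have ih := gP_second i w t n
    have hm := mono_second w t n
    simp only [gP, dP, hH]
    have hf : ((n + 1).factorial : ℝ) = (n + 1 : ℝ) * (n.factorial : ℝ) := by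
      rw [Nat.factorial_succ]
      push_cast
      ring
    have hf0 : (n.factorial : ℝ) ≠ 0 := by exact_mod_cast Nat.factorial_ne_zero _
    have hn0 : (n + 1 : ℝ) ≠ 0 := by positivity
    have e1 : (-1 : ℝ) ^ n * bB i n / (n.factorial : ℝ)
        = (-1) ^ n * bB i n / ((n + 1).factorial : ℝ) * (n + 1 : ℝ) := by
      rw [hf]
      field_simp
    rw [e1]
    set C := (-1 : ℝ) ^ n * bB i n / ((n + 1).factorial : ℝ)
    have : gP i n t + C * t ^ (n + 1) + (dP i n t + C * (n + 1 : ℝ) * t ^ n) * (w - t)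
        - (gP i n w + C * w ^ (n + 1))
        = (gP i n t + dP i n t * (w - t) - gP i n w)
          + C * (t ^ (n + 1) + (n + 1 : ℝ) * t ^ n * (w - t) - w ^ (n + 1)) := by ring
    rw [this, ih, hm]
    ring

end Vale.Agent.Lib.P154M
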