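import Vale.Agent.Lib.P154M.FinE
import Vale.Agent.Lib.P154M.Gpoly

set_option linter.defProp false

/-!
Expressions for the side conditions on the truncations and multipliers.
-/

noncomputable section

namespace Vale.Agent.Lib.P154M

open Vale.Agent.Lib.Common.Kron Vale.Agent.Lib.Common.Kron.PE

/-- Expression for the auxiliary sum. -/
def eS2 (W T : PE) : ℕ → PE
  | 0 => c 0
  | (k + 1) => PE.add (PE.mul W (eS2 W T k)) (PE.mul (c k) (PE.pow T (k - 1)))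

/-- Expression: `n! * hH`. -/
def eHH (I W T : PE) : ℕ → PE
  | 0 => c 0
  | (n + 1) => PE.add (PE.mul (c (n + 1)) (eHH I W T n))
      (neg (sgE n (PE.mul (eB I n) (eS2 W T (n + 1)))))

theorem eval_eS2 (x : ℕ → ℝ) (W T : PE) (k : ℕ) :
    evalR x (eS2 W T k) = sS2 (evalR x W) (evalR x T) k := by
  induction k with
  | zero => simp [eS2, sS2, evalR]
  | succ k ih => simp only [eS2, sS2, evalR, ih]

theorem eval_eHH (x : ℕ → ℝ) (I W T : PE) (n : ℕ) :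
    evalR x (eHH I W T n) = n.factorial * hH (evalR x I) (evalR x W) (evalR x T) n := by
  induction n with
  | zero => simp [eHH, hH, evalR]
  | succ n ih =>
    simp only [eHH, hH, evalR, ih, eval_sgE, eval_eB, eval_eS2, Nat.factorial_succ]
    have hf : ((n + 1) * n.factorial : ℕ) ≠ 0 :=
      Nat.mul_ne_zero (Nat.succ_ne_zero _) (Nat.factorial_ne_zero _)
    have hf' : (((n + 1) * n.factorial : ℕ) : ℝ) ≠ 0 := by exact_mod_cast hf
    field_simp
    push_cast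
    ring

/-- Side condition expressions. -/
def eG7 : PE := eHH (v 2) (v 0) (v 1) 7
/-- Side condition expressions. -/
def eG8 : PE := PE.add (c 20160) (neg (eHH (v 2) (v 0) (v 1) 8))
/-- Side condition expressions. -/
def eGA : PE := eAA (v 2) (v 0)
/-- Side condition expressions. -/
def eGB : PE := eBB (v 2) (v 0)
/-- Side condition expressions. -/
def eA3 : PE :=
  PE.add (c 51030000) (neg (peMu (v 3) (eS3 (v 0) (v 1)) (eYY (v 0) (v 1)) gU3L))

/-- Root cell for the side conditions. -/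
def rG1 : Cell := ⟨⟨0, 21, 10⟩, ⟨0, 21, 10⟩, ⟨0, 1, 5⟩, ⟨0, 1, 1⟩⟩
/-- Root cell for the side conditions. -/
def rG2 : Cell := ⟨⟨0, 1, 1⟩, ⟨1, 4, 2⟩, ⟨0, 1, 1⟩, ⟨0, 9, 20⟩⟩

set_option maxRecDepth 100000 in
def checkG7 : checkT eG7 (c 1) [10, 10, 10, 1] .leaf rG1 = true := by decide +kernel
set_option maxRecDepth 100000 in
def checkG8 : checkT eG8 (c 1) [10, 10, 10, 1] .leaf rG1 = true := by decide +kernel
set_option maxRecDepth 100000 in
def checkGA : checkT eGA (c 1) [12, 1, 12, 1] .leaf rG1 = true := by decide +kernel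
set_option maxRecDepth 100000 in
def checkGB : checkT eGB (c 1) [12, 1, 12, 1] .leaf rG1 = true := by decide +kernel
set_option maxRecDepth 100000 in
def checkA3 : checkT eA3 (c 1) [11, 11, 1, 9] .leaf rG2 = true := by decide +kernel

theorem rG1_good : rG1.good := by
  refine ⟨?_, ?_, ?_, ?_⟩ <;> simp [rG1]
theorem rG2_good : rG2.good := by
  refine ⟨?_, ?_, ?_, ?_⟩ <;> simp [rG2]

theorem one_pos_eval (x : ℕ → ℝ) : 0 < evalR x (PE.c 1) := by simp [evalR]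

theorem rG1_nonneg {e : PE} {rad : List ℕ} {T : BT} (h : checkT e (c 1) rad T rG1 = true)
    {x0 x1 x2 : ℝ} (h0 : 0 ≤ x0) (h0' : x0 ≤ 21 / 10) (h1 : 0 ≤ x1) (h1' : x1 ≤ 21 / 10)
    (h2 : 0 ≤ x2) (h2' : x2 ≤ 1 / 5) : 0 ≤ evalR (xv x0 x1 x2 0) e := by
  refine tree_nonneg rG1_good (by simp [rG1]) (by simp [rG1]) (by simp [rG1]) (by simp [rG1]) h
    ?_ ?_ ?_ ?_ (one_pos_eval _)
  · constructor
    · simpa [rG1] using h0
    · simpa [rG1] using h0'
  · constructor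
    · simpa [rG1] using h1
    · simpa [rG1] using h1'
  · constructor
    · simpa [rG1] using h2
    · simpa [rG1] using h2'
  · constructor
    · simp [rG1]
    · simp [rG1]

theorem hH7_nonneg {i w t : ℝ} (hw0 : 0 ≤ w) (hw1 : w ≤ 21 / 10) (ht0 : 0 ≤ t) (ht1 : t ≤ 21 / 10)
    (hi0 : 0 ≤ i) (hi1 : i ≤ 1 / 5) : 0 ≤ hH i w t 7 := by
  have h := rG1_nonneg checkG7 hw0 hw1 ht0 ht1 hi0 hi1
  simp only [eG7, eval_eHH, evalR, xv] at h
  have hf : ((Nat.factorial 7 : ℕ) : ℝ) = 5040 := by norm_num [Nat.factorial]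
  rw [hf] at h
  linarith

theorem hH8_le {i w t : ℝ} (hw0 : 0 ≤ w) (hw1 : w ≤ 21 / 10) (ht0 : 0 ≤ t) (ht1 : t ≤ 21 / 10)
    (hi0 : 0 ≤ i) (hi1 : i ≤ 1 / 5) : hH i w t 8 ≤ 1 / 2 := by
  have h := rG1_nonneg checkG8 hw0 hw1 ht0 ht1 hi0 hi1
  simp only [eG8, eval_eHH, evalR, xv] at h
  have hf : ((Nat.factorial 8 : ℕ) : ℝ) = 40320 := by norm_num [Nat.factorial]
  rw [hf] at h
  push_cast at h
  linarith

theorem aaH_nonneg {i w : ℝ} (hw0 : 0 ≤ w) (hw1 : w ≤ 21 / 10) (hi0 : 0 ≤ i) (hi1 : i ≤ 1 / 5) :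
    0 ≤ aaH i w := by
  have h := rG1_nonneg (x1 := 0) checkGA hw0 hw1 le_rfl (by norm_num) hi0 hi1
  simp only [eGA, eval_eAA, evalR, xv] at h
  linarith

theorem bbH_nonneg {i w : ℝ} (hw0 : 0 ≤ w) (hw1 : w ≤ 21 / 10) (hi0 : 0 ≤ i) (hi1 : i ≤ 1 / 5) :
    0 ≤ bbH i w := by
  have h := rG1_nonneg (x1 := 0) checkGB hw0 hw1 le_rfl (by norm_num) hi0 hi1
  simp only [eGB, eval_eBB, evalR, xv] at h
  linarith

theorem lamH_nonneg {w : ℝ} (hw0 : 0 ≤ w) (hw1 : w ≤ 9 / 4) : 0 ≤ lamH w := by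
  unfold lamH
  have h1 : 0 ≤ w ^ 2 := sq_nonneg w
  have h3 : 0 ≤ w ^ 3 := pow_nonneg hw0 3
  nlinarith

/-- Concavity of the upper truncation on the range. -/
theorem upper_tangent {i w t : ℝ} (hw0 : 0 ≤ w) (hw1 : w ≤ 21 / 10) (ht0 : 0 ≤ t)
    (ht1 : t ≤ 21 / 10) (hi0 : 0 ≤ i) (hi1 : i ≤ 1 / 5) :
    gP i 7 w ≤ gP i 7 t + dP i 7 t * (w - t) := by
  have h := gP_second i w t 7
  have h2 := hH7_nonneg hw0 hw1 ht0 ht1 hi0 hi1
  have h3 : 0 ≤ (w - t) ^ 2 * hH i w t 7 := mul_nonneg (sq_nonneg _) h2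
  linarith

/-- Second order bound of the lower truncation on the range. -/
theorem lower_tangent {i w t : ℝ} (hw0 : 0 ≤ w) (hw1 : w ≤ 21 / 10) (ht0 : 0 ≤ t)
    (ht1 : t ≤ 21 / 10) (hi0 : 0 ≤ i) (hi1 : i ≤ 1 / 5) :
    gP i 8 t + dP i 8 t * (w - t) - (w - t) ^ 2 / 2 ≤ gP i 8 w := by
  have h := gP_second i w t 8
  have h2 := hH8_le hw0 hw1 ht0 ht1 hi0 hi1
  have h3 : (w - t) ^ 2 * hH i w t 8 ≤ (w - t) ^ 2 * (1 / 2) :=
    mul_le_mul_of_nonneg_left h2 (sq_nonneg _)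
  linarith

/-- The bound for the third defect on the channel image. -/
theorem a3_bound {r t u : ℝ} (hr0 : 0 ≤ r) (hr1 : r ≤ 1) (ht0 : 1 / 2 ≤ t) (ht1 : t ≤ 2)
    (hu0 : 0 ≤ u) (hu1 : u ≤ 9 / 20) : ev2u gU3L u (s3R r t) (yyR r t) / gD ≤ 21 / 10 := by
  have h := tree_nonneg (x0 := r) (x1 := t) (x2 := 0) (x3 := u) rG2_good (by simp [rG2])
    (by simp [rG2]) (by simp [rG2]) (by simp [rG2]) checkA3
    (by constructor <;> simpa [rG2]) (by constructor <;> simpa [rG2] using by linarith)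
    (by constructor <;> simp [rG2]) (by constructor <;> simpa [rG2] using by linarith)
    (one_pos_eval _)
  simp only [eA3, evalR, eval_peMu', eval_eS3, eval_eYY, xv] at h
  have hg : (gD : ℝ) = 24300000 := by norm_num [gD]
  rw [hg] at *
  rw [div_le_iff₀ (by norm_num)]
  push_cast at h
  linarith

end Vale.Agent.Lib.P154M
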