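import Vale.Agent.Lib.P154M.Defs

/-!
Expressions for the pointwise checks in the chart, and their values.
-/

noncomputable section

namespace Vale.Agent.Lib.P154M

open Vale.Agent.Lib.Common.Kron Vale.Agent.Lib.Common.Kron.PE

/-- Product form. -/
def xP (X1 X2 X3 : PE) : PE := PE.mul X1 (PE.mul X2 X3)
/-- Power sums. -/
def xPw (n : ℕ) (X1 X2 X3 : PE) : PE := PE.add (PE.pow X1 n) (PE.add (PE.pow X2 n) (PE.pow X3 n))
/-- Mixed sum. -/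
def xW (X1 X2 X3 : PE) : PE :=
  PE.add (PE.mul (PE.pow X1 2) (PE.add X2 X3)) (PE.add (PE.mul (PE.pow X2 2) (PE.add X1 X3))
    (PE.mul (PE.pow X3 2) (PE.add X1 X2)))
/-- Numerator of `3 * s`. -/
def xSN (X1 X2 X3 : PE) : PE :=
  PE.add (PE.mul (c 9) (xPw 12 X1 X2 X3)) (neg (PE.mul (c 3) (PE.pow (xPw 6 X1 X2 X3) 2)))
/-- Numerator of `y`. -/
def xYN (X1 X2 X3 : PE) : PE :=
  PE.add (PE.mul (c 9) (xPw 18 X1 X2 X3))
    (PE.add (neg (PE.mul (c 9) (PE.mul (xPw 12 X1 X2 X3) (xPw 6 X1 X2 X3))))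
      (PE.mul (c 2) (PE.pow (xPw 6 X1 X2 X3) 3)))

/-- A combination of the basic forms. -/
def xForm (a b d e : ℤ) (X1 X2 X3 : PE) : PE :=
  PE.add (PE.mul (zE a) (xPw 6 X1 X2 X3))
    (PE.add (PE.mul (zE b) (PE.mul (xP X1 X2 X3) (xPw 3 X1 X2 X3)))
      (PE.add (PE.mul (zE d) (PE.mul (xP X1 X2 X3) (xW X1 X2 X3)))
        (PE.mul (zE e) (PE.pow (xP X1 X2 X3) 2))))

/-- Lower bound check for the Lyapunov function. -/
def eHG (X1 X2 X3 : PE) : PE :=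
  PE.add (PE.mul (c gD) (PE.mul (xForm 15 72 (-150) 639 X1 X2 X3) (PE.pow (xPw 6 X1 X2 X3) 9)))
    (neg (PE.mul (c 4) (peH 10 (xSN X1 X2 X3) (xYN X1 X2 X3) (xPw 6 X1 X2 X3) gGL)))

/-- Upper bound check, first aggregate. -/
def eHU0 (X1 X2 X3 : PE) : PE :=
  PE.add (PE.mul (c 4) (peH 10 (xSN X1 X2 X3) (xYN X1 X2 X3) (xPw 6 X1 X2 X3) gU0L))
    (neg (PE.mul (c gD) (PE.mul (xForm 7 72 (-150) 663 X1 X2 X3) (PE.pow (xPw 6 X1 X2 X3) 9))))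

/-- Upper bound check, second aggregate. -/
def eHU1 (X1 X2 X3 : PE) : PE :=
  PE.add (PE.mul (c 48) (peH 10 (xSN X1 X2 X3) (xYN X1 X2 X3) (xPw 6 X1 X2 X3) gU1L))
    (neg (PE.mul (c gD) (PE.mul (xForm (-29) 216 (-150) 339 X1 X2 X3) (PE.pow (xPw 6 X1 X2 X3) 9))))

/-- Upper bound check, third defect. -/
def eHU3 (X1 X2 X3 : PE) : PE :=
  PE.add (peH 10 (xSN X1 X2 X3) (xYN X1 X2 X3) (xPw 6 X1 X2 X3) gU3L)
    (neg (PE.mul (c gD) (PE.mul (xForm 1 0 0 (-3) X1 X2 X3) (PE.pow (xPw 6 X1 X2 X3) 9))))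

/-- Check for the square of the first difference. -/
def eHE (X1 X2 X3 : PE) : PE :=
  PE.add (PE.mul (c 592) (PE.pow (xSN X1 X2 X3) 3))
    (neg (PE.mul (c 2700000) (PE.mul (PE.pow (xPw 6 X1 X2 X3) 4)
      (PE.pow (xForm 1 (-4) 0 9 X1 X2 X3) 2))))

/-- The chart. -/
def chX1 : PE := PE.mul (v 0) (v 1)
/-- The chart. -/
def chX2 : PE := v 1
/-- The chart. -/
def chX3 : PE := c 1

/-- Root cell for the chart. -/
def root2 : Cell := ⟨⟨0, 1, 1⟩, ⟨0, 1, 1⟩, ⟨0, 1, 1⟩, ⟨0, 1, 1⟩⟩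

/-- Region for the channel images. -/
def regM : PE := PE.add (PE.mul (c 10000) (xPw 6 chX1 chX2 chX3)) (neg (c 20689))

/-! ### Values -/

/-- Values of the forms. -/
def rP (X Y Z : ℝ) : ℝ := X * (Y * Z)
/-- Values of the forms. -/
def rPw (n : ℕ) (X Y Z : ℝ) : ℝ := X ^ n + (Y ^ n + Z ^ n)
/-- Values of the forms. -/
def rW (X Y Z : ℝ) : ℝ := X ^ 2 * (Y + Z) + (Y ^ 2 * (X + Z) + Z ^ 2 * (X + Y))
/-- Values of the forms. -/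
def rSN (X Y Z : ℝ) : ℝ := 9 * rPw 12 X Y Z + -(3 * rPw 6 X Y Z ^ 2)
/-- Values of the forms. -/
def rYN (X Y Z : ℝ) : ℝ :=
  9 * rPw 18 X Y Z + (-(9 * (rPw 12 X Y Z * rPw 6 X Y Z)) + 2 * rPw 6 X Y Z ^ 3)
/-- Values of the forms. -/
def rForm (a b d e : ℤ) (X Y Z : ℝ) : ℝ :=
  (a : ℝ) * rPw 6 X Y Z + ((b : ℝ) * (rP X Y Z * rPw 3 X Y Z)
    + ((d : ℝ) * (rP X Y Z * rW X Y Z) + (e : ℝ) * rP X Y Z ^ 2))

section evals
variable (x : ℕ → ℝ) (A B C : PE)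

theorem eval_xP : evalR x (xP A B C) = rP (evalR x A) (evalR x B) (evalR x C) := by
  simp only [xP, evalR, rP]
theorem eval_xPw (n : ℕ) : evalR x (xPw n A B C) = rPw n (evalR x A) (evalR x B) (evalR x C) := by
  simp only [xPw, evalR, rPw]
theorem eval_xW : evalR x (xW A B C) = rW (evalR x A) (evalR x B) (evalR x C) := by
  simp only [xW, evalR, rW]
theorem eval_xSN : evalR x (xSN A B C) = rSN (evalR x A) (evalR x B) (evalR x C) := by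
  simp only [xSN, evalR, rSN, eval_xPw]
  norm_num
theorem eval_xYN : evalR x (xYN A B C) = rYN (evalR x A) (evalR x B) (evalR x C) := by
  simp only [xYN, evalR, rYN, eval_xPw]
  norm_num
theorem eval_xForm (a b d e : ℤ) :
    evalR x (xForm a b d e A B C) = rForm a b d e (evalR x A) (evalR x B) (evalR x C) := by
  simp only [xForm, evalR, rForm, eval_zE, eval_xPw, eval_xP, eval_xW]

end evals

section values
variable {X Y Z : ℝ}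

theorem sS_val (hM : rPw 6 X Y Z ≠ 0) :
    3 * sS (3 / rPw 6 X Y Z * X ^ 6) (3 / rPw 6 X Y Z * Y ^ 6) (3 / rPw 6 X Y Z * Z ^ 6)
      = rSN X Y Z / rPw 6 X Y Z ^ 2 := by
  set M := rPw 6 X Y Z with hMd
  have h0 : X ^ 6 + (Y ^ 6 + Z ^ 6) = M := rfl
  unfold sS rSN
  rw [← hMd]
  have h12 : rPw 12 X Y Z = (X ^ 6) ^ 2 + ((Y ^ 6) ^ 2 + (Z ^ 6) ^ 2) := by
    unfold rPw
    ring
  rw [h12]
  have h3 : Z ^ 6 = M - X ^ 6 - Y ^ 6 := by linarith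
  rw [h3]
  field_simp
  ring

theorem yS_val (hM : rPw 6 X Y Z ≠ 0) :
    yS (3 / rPw 6 X Y Z * X ^ 6) (3 / rPw 6 X Y Z * Y ^ 6) (3 / rPw 6 X Y Z * Z ^ 6)
      = rYN X Y Z / rPw 6 X Y Z ^ 3 := by
  set M := rPw 6 X Y Z with hMd
  have h0 : X ^ 6 + (Y ^ 6 + Z ^ 6) = M := rfl
  unfold yS rYN
  rw [← hMd]
  have h12 : rPw 12 X Y Z = (X ^ 6) ^ 2 + ((Y ^ 6) ^ 2 + (Z ^ 6) ^ 2) := by
    unfold rPw
    ring
  have h18 : rPw 18 X Y Z = (X ^ 6) ^ 3 + ((Y ^ 6) ^ 3 + (Z ^ 6) ^ 3) := by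
    unfold rPw
    ring
  rw [h12, h18]
  have h3 : Z ^ 6 = M - X ^ 6 - Y ^ 6 := by linarith
  rw [h3]
  field_simp
  ring

variable (hX : 0 ≤ X) (hY : 0 ≤ Y) (hZ : 0 ≤ Z) (hM : 0 < rPw 6 X Y Z)
include hX hY hZ hM

theorem f1_val' :
    rPw 6 X Y Z * f1 (3 / rPw 6 X Y Z * X ^ 6) (3 / rPw 6 X Y Z * Y ^ 6) (3 / rPw 6 X Y Z * Z ^ 6)
      = rP X Y Z * rPw 3 X Y Z := by
  rw [f1_val (div_pos (by norm_num) hM) hX hY hZ]
  unfold rP rPw at *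
  field_simp

theorem f2_val' :
    2 * rPw 6 X Y Z * f2 (3 / rPw 6 X Y Z * X ^ 6) (3 / rPw 6 X Y Z * Y ^ 6) (3 / rPw 6 X Y Z * Z ^ 6)
      = rP X Y Z * rW X Y Z := by
  rw [f2_val (div_pos (by norm_num) hM) hX hY hZ]
  unfold rP rW at *
  field_simp
  ring

theorem f3_val' :
    rPw 6 X Y Z * f3 (3 / rPw 6 X Y Z * X ^ 6) (3 / rPw 6 X Y Z * Y ^ 6) (3 / rPw 6 X Y Z * Z ^ 6)
      = 3 * rP X Y Z ^ 2 := by
  rw [f3_val (div_pos (by norm_num) hM) hX hY hZ]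
  unfold rP at *
  field_simp

theorem ell_val :
    4 * rPw 6 X Y Z * ell (3 / rPw 6 X Y Z * X ^ 6) (3 / rPw 6 X Y Z * Y ^ 6)
      (3 / rPw 6 X Y Z * Z ^ 6) = rForm 15 72 (-150) 639 X Y Z := by
  have h1 := f1_val' hX hY hZ hM
  have h2 := f2_val' hX hY hZ hM
  have h3 := f3_val' hX hY hZ hM
  unfold ell ph1 ph2 ph3 rForm
  push_cast
  linear_combination 72 * h1 - 150 * h2 + 213 * h3

theorem eE0_val :
    4 * rPw 6 X Y Z * eE0 (3 / rPw 6 X Y Z * X ^ 6) (3 / rPw 6 X Y Z * Y ^ 6)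
      (3 / rPw 6 X Y Z * Z ^ 6) = rForm 7 72 (-150) 663 X Y Z := by
  have h1 := f1_val' hX hY hZ hM
  have h2 := f2_val' hX hY hZ hM
  have h3 := f3_val' hX hY hZ hM
  unfold eE0 ph1 ph2 ph3 rForm
  push_cast
  linear_combination 72 * h1 - 150 * h2 + 221 * h3

theorem eE1_val :
    48 * rPw 6 X Y Z * eE1 (3 / rPw 6 X Y Z * X ^ 6) (3 / rPw 6 X Y Z * Y ^ 6)
      (3 / rPw 6 X Y Z * Z ^ 6) = rForm (-29) 216 (-150) 339 X Y Z := by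
  have h1 := f1_val' hX hY hZ hM
  have h2 := f2_val' hX hY hZ hM
  have h3 := f3_val' hX hY hZ hM
  unfold eE1 ph1 ph2 ph3 rForm
  push_cast
  linear_combination 216 * h1 - 150 * h2 + 113 * h3

theorem ph3_val :
    rPw 6 X Y Z * ph3 (3 / rPw 6 X Y Z * X ^ 6) (3 / rPw 6 X Y Z * Y ^ 6)
      (3 / rPw 6 X Y Z * Z ^ 6) = rForm 1 0 0 (-3) X Y Z := by
  have h3 := f3_val' hX hY hZ hM
  unfold ph3 rForm
  push_cast
  linear_combination -h3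

theorem ee1_val :
    4 * rPw 6 X Y Z * ee1 (3 / rPw 6 X Y Z * X ^ 6) (3 / rPw 6 X Y Z * Y ^ 6)
      (3 / rPw 6 X Y Z * Z ^ 6) = rForm 1 (-4) 0 9 X Y Z := by
  have h1 := f1_val' hX hY hZ hM
  have h3 := f3_val' hX hY hZ hM
  unfold ee1 ph1 ph3 rForm
  push_cast
  linear_combination -4 * h1 + 3 * h3

end values

end Vale.Agent.Lib.P154M
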