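import Vale.Agent.Lib.P154M.SLevel
import Vale.Agent.Lib.P154B.Sig
import Vale.Agent.Lib.P154P.Bridge
import Vale.Agent.Lib.P154P.Box

/-!
Nonreconstruction for the three state antiferromagnetic channel from the Mellin Lyapunov function.
-/

noncomputable section

open Filter Topology

namespace Vale.Agent.Lib.P154M

open Vale.Agent.Lib.P154 Vale.Agent.Lib.P154P Vale.Agent.Lib.P154.Mellin

/-- Exponents of the Lyapunov function. -/
def cJ : Fin 3 → Vc := ![c1, c2, c3]
/-- Coefficients of the Lyapunov function. -/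
def gJ : Fin 3 → ℝ := ![-18, 75, -(213 / 4)]

theorem cJ_exp (j : Fin 3) : IsExp (cJ j) := by
  fin_cases j
  · exact c1_exp
  · exact c2_exp
  · exact c3_exp

/-- Drift on the regular tree at the critical eigenvalue. -/
theorem reg_crit {d : ℕ} (hd : 5 ≤ d) {u : ℝ} (hu0 : 0 < u) (hdu : (d : ℝ) * u ^ 2 = 1) :
    Tendsto (advantage d 3 (-u)) atTop (𝓝 0) := by
  have hd5 : (5 : ℝ) ≤ d := by exact_mod_cast hd
  have hu1 : u ≤ 9 / 20 := by nlinarith
  have h0 : -(1 / 2) ≤ -u := by linarith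
  have h1 : -u ≤ 1 := by linarith
  refine (reg_of_lyap (d := d) cJ_exp gJ h0 h1 (κ := 1 / 1000) (by norm_num) 0 fun n _ => ?_).2
  have := f1_dary_core (Elev_isEx (d := d) h0 h1 n) hd hu0 hdu
  simp only [Fin.sum_univ_three, cJ, gJ]
  simpa [sub_eq_add_neg, add_assoc, mul_comm] using this

/-- Nonreconstruction on the regular tree at and below the bound. -/
theorem reg_main {d : ℕ} (hd : 5 ≤ d) {mu : ℝ} (h0 : 0 ≤ mu) (hKS : (d : ℝ) * mu ^ 2 ≤ 1) :
    Tendsto (advantage d 3 (-mu)) atTop (𝓝 0) := by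
  have hd5 : (5 : ℝ) ≤ d := by exact_mod_cast hd
  have hd0 : (0 : ℝ) < d := by linarith
  set u := Real.sqrt (1 / (d : ℝ)) with hu
  have hu0 : 0 < u := Real.sqrt_pos.2 (by positivity)
  have hu2 : u ^ 2 = 1 / (d : ℝ) := Real.sq_sqrt (by positivity)
  have hdu : (d : ℝ) * u ^ 2 = 1 := by
    rw [hu2]
    field_simp
  have hu1 : u ≤ 1 / 2 := by nlinarith
  have hmu : mu ≤ u := by
    have : mu ^ 2 ≤ u ^ 2 := by
      rw [hu2, le_div_iff₀ hd0]
      linarith
    exact abs_le_of_sq_le_sq' this hu0.le |>.2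
  have hl := reg_crit hd hu0 hdu
  have hmono := fun n => Vale.Agent.Lib.P154B.advantage_mono_mu d h0 hmu hu1 n
  refine tendsto_of_tendsto_of_tendsto_of_le_of_le tendsto_const_nhds hl (fun n => ?_) hmono
  rw [advantage_eq_Elev]
  exact (Elev_isEx (by linarith) (by linarith) n).nonneg bdd_advF fun a _ => advF_nonneg a

/-! ### The Poisson trees -/

open Vale.Agent.Lib.P154B in
theorem advF_term {v : Vc} (hv : Vale.Agent.Lib.P154P.NN v) :
    NV v * advF (nrm v) = advTest v + (2 / 9) * Lin v := by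
  have e1 : NV v = Lin v / 3 := rfl
  unfold advTest
  rw [e1]
  have hN : 0 ≤ Lin v := by
    unfold Lin
    have a0 := hv 0
    have a1 := hv 1
    have a2 := hv 2
    linarith
  rcases hN.eq_or_lt with h2 | h2
  · have a0 := hv 0
    have a1 := hv 1
    have a2 := hv 2
    have h3 : v 0 + v 1 + v 2 = 0 := h2.symm
    have z0 : v 0 = 0 := by linarith
    have z1 : v 1 = 0 := by linarith
    have z2 : v 2 = 0 := by linarith
    rw [← h2, z0, z1, z2]
    simp
  · unfold advF nrm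
    rw [e1]
    have e (x : ℝ) : |x / (Lin v / 3) - 1| = |x - Lin v / 3| / (Lin v / 3) := by
      have : x / (Lin v / 3) - 1 = (x - Lin v / 3) / (Lin v / 3) := by
        field_simp
      rw [this, abs_div, abs_of_pos (by positivity : 0 < Lin v / 3)]
    rw [e, e, e]
    field_simp
    ring

open Vale.Agent.Lib.P154B in
theorem EF_advF {ι : Type*} [Fintype ι] {l : ι → Vc} (hl : WS l) :
    EF advF l = sigFun l advTest + 2 / 3 := by
  unfold EF sigFun
  have h := sum_NV hl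
  have e : ∀ t, NV (l t) * advF (nrm (l t)) = advTest (l t) + (2 / 3) * NV (l t) := fun t => by
    rw [advF_term (hl.nonneg t)]
    have e1 : NV (l t) = Lin (l t) / 3 := rfl
    rw [e1]
    ring
  simp only [e]
  rw [Finset.sum_add_distrib, ← Finset.mul_sum, h]
  ring

open Vale.Agent.Lib.P154B in
/-- The advantage as a functional. -/
theorem gwAdvantage_eq_fun {p : ℕ → ℝ} (hp : WProb p) {mu : ℝ} (h0 : 0 ≤ mu) (h1 : mu ≤ 1 / 2) (n : ℕ) :
    gwAdvantage p 3 (-mu) n = gwFun p (-mu) n advTest + 2 / 3 := by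
  rw [gwAdvantage_eq_Ex]
  unfold Ex gwFun
  have hw := gwWeight_wprob hp n
  rw [Ew_congr _ (fun T => sigFun (glev (-mu) n T) advTest + 2 / 3)
    (fun T => EF_advF (glev_ws (by linarith) (by linarith) n T)),
    Ew_add hw (bdd_sigFun hp h0 h1 n advTest_isTest.adm) ⟨|2 / 3|, fun _ => le_rfl⟩, Ew_const hw]

open Vale.Agent.Lib.P154B in
/-- Monotonicity of the advantage in the offspring law and the eigenvalue. -/
theorem gwAdvantage_box {p p' : ℕ → ℝ} {mu mu' : ℝ} (hp : WProb p) (hp' : WProb p') (hst : StochLE p p')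
    (h0 : 0 ≤ mu) (hmu : mu ≤ mu') (h0' : 0 < mu') (h1 : mu' ≤ 1 / 2) (n : ℕ) :
    gwAdvantage p 3 (-mu) n ≤ gwAdvantage p' 3 (-mu') n := by
  rw [gwAdvantage_eq_fun hp h0 (by linarith), gwAdvantage_eq_fun hp' h0'.le h1]
  have := gwFun_box hp hp' hst h0 hmu h0' h1 n advTest advTest_isTest
  linarith

/-- Poisson trees at the critical mean. -/
theorem poi_crit {u : ℝ} (hu0 : 0 < u) (hu1 : u ≤ 4 / 9) :
    Tendsto (gwAdvantage (poissonLaw (1 / u ^ 2)) 3 (-u)) atTop (𝓝 0) := by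
  have hd : 0 ≤ 1 / u ^ 2 := by positivity
  have h0 : -(1 / 2) ≤ -u := by linarith
  have h1 : -u ≤ 1 := by linarith
  refine (poisson_of_lyap hd cJ_exp gJ h0 h1 (κ := 1 / 1000) (by norm_num) 0 fun n _ => ?_).2.2
  have := f1_poisson_core (Ex_isEx (poisson_wprob hd) h0 h1 n) hu0 hu1
  simp only [Fin.sum_univ_three, cJ, gJ]
  simpa [sub_eq_add_neg, add_assoc, mul_comm] using this

/-- Nonreconstruction on Poisson trees at and below the bound, for `mu ≤ 4 / 9`. -/
theorem poi_main {d mu : ℝ} (hd : 0 < d) (h0 : 0 < mu) (h1 : mu ≤ 4 / 9) (hKS : d * mu ^ 2 ≤ 1) :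
    (∀ n, Summable (fun T : GWTree n => gwWeight (poissonLaw d) n T * gwTreeAdvantage 3 (-mu) n T))
      ∧ Tendsto (gwAdvantage (poissonLaw d) 3 (-mu)) atTop (𝓝 0) := by
  have hl0 : -(1 / 2) ≤ -mu := by linarith
  have hl1 : -mu ≤ 1 := by linarith
  have hd' : 0 ≤ 1 / mu ^ 2 := by positivity
  have hdd : d ≤ 1 / mu ^ 2 := by
    rw [le_div_iff₀ (by positivity)]
    exact hKS
  have hp := poisson_wprob hd.le
  refine ⟨fun n => summable_gwAdv hp hl0 hl1 n, ?_⟩
  refine tendsto_of_tendsto_of_tendsto_of_le_of_le tendsto_const_nhds (poi_crit h0 h1) (fun n => ?_)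
    (fun n => gwAdvantage_box hp (poisson_wprob hd') (poisson_stoch hd.le hdd) h0.le le_rfl h0 (by linarith) n)
  rw [gwAdvantage_eq_Ex]
  exact (Ex_isEx hp hl0 hl1 n).nonneg bdd_advF fun a _ => advF_nonneg a

/-- The chi-square functional tends to zero on the critical Poisson tree. -/
theorem poi_xbar {u : ℝ} (hu0 : 0 < u) (hu1 : u ≤ 4 / 9) :
    Tendsto (Xbar (poissonLaw (1 / u ^ 2)) (-u)) atTop (𝓝 0) := by
  have hd : 0 ≤ 1 / u ^ 2 := by positivity
  have h0 : -(1 / 2) ≤ -u := by linarith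
  have h1 : -u ≤ 1 := by linarith
  have hT := (poisson_of_lyap hd cJ_exp gJ h0 h1 (κ := 1 / 1000) (by norm_num) 0 fun n _ => by
    have := f1_poisson_core (Ex_isEx (poisson_wprob hd) h0 h1 n) hu0 hu1
    simp only [Fin.sum_univ_three, cJ, gJ]
    simpa [sub_eq_add_neg, add_assoc, mul_comm] using this).1
  have hE := fun n => Ex_isEx (p := poissonLaw (1 / u ^ 2)) (poisson_wprob hd) h0 h1 n
  have hS : Tendsto (fun n => Real.sqrt (Ex (poissonLaw (1 / u ^ 2)) (-u) n (fun a => sF a ^ 2))) atTop (𝓝 0) := by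
    have := hT.sqrt
    simpa using this
  have hle : ∀ n, Xbar (poissonLaw (1 / u ^ 2)) (-u) n
      ≤ Real.sqrt (Ex (poissonLaw (1 / u ^ 2)) (-u) n (fun a => sF a ^ 2)) := fun n => by
    have e := Ex_sF (p := poissonLaw (1 / u ^ 2)) h0 h1 n
    have hJ := (hE n).sq_le bdd_sF
    have hn : 0 ≤ Ex (poissonLaw (1 / u ^ 2)) (-u) n sF := (hE n).nonneg bdd_sF fun a _ => sF_nonneg a
    have h3 : Ex (poissonLaw (1 / u ^ 2)) (-u) n sF
        ≤ Real.sqrt (Ex (poissonLaw (1 / u ^ 2)) (-u) n (fun a => sF a ^ 2)) :=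
      Real.le_sqrt_of_sq_le hJ
    linarith
  have hnn : ∀ n, 0 ≤ Xbar (poissonLaw (1 / u ^ 2)) (-u) n := fun n => by
    have e := Ex_sF (p := poissonLaw (1 / u ^ 2)) h0 h1 n
    have hn : 0 ≤ Ex (poissonLaw (1 / u ^ 2)) (-u) n sF := (hE n).nonneg bdd_sF fun a _ => sF_nonneg a
    linarith
  exact tendsto_of_tendsto_of_tendsto_of_le_of_le tendsto_const_nhds hS hnn hle

end Vale.Agent.Lib.P154M
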