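import Vale.Agent.Lib.P154M.CheckA

/-!
The pointwise polynomial bounds on the simplex, from the kernel checks.
-/

noncomputable section

namespace Vale.Agent.Lib.P154M

open Vale.Agent.Lib.Common.Kron Vale.Agent.Lib.Common.Kron.PE

theorem gGL_wt : wtLe 10 gGL = true := by decide
theorem gU0L_wt : wtLe 10 gU0L = true := by decide
theorem gU1L_wt : wtLe 10 gU1L = true := by decide
theorem gU3L_wt : wtLe 10 gU3L = true := by decide

theorem root2_good : root2.good := by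
  refine ⟨?_, ?_, ?_, ?_⟩ <;> simp [root2]

theorem cmem01 {x : ℝ} (h0 : 0 ≤ x) (h1 : x ≤ 1) : Iv.cmem ⟨0, 1, 1⟩ x := by
  constructor <;> simpa

/-- Values at a chart point. -/
theorem eval_chX1 (p q : ℝ) : evalR (xv p q 0 0) chX1 = p * q := by
  simp [chX1, evalR, xv]
theorem eval_chX2 (p q : ℝ) : evalR (xv p q 0 0) chX2 = q := by
  simp [chX2, evalR, xv]
theorem eval_chX3 (p q : ℝ) : evalR (xv p q 0 0) chX3 = 1 := by
  simp [chX3, evalR]

theorem tree_chart {e r : PE} {rad : List ℕ} (h : ∃ T, checkT e r rad T root2 = true) {p q : ℝ}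
    (hp0 : 0 ≤ p) (hp1 : p ≤ 1) (hq0 : 0 ≤ q) (hq1 : q ≤ 1)
    (hr : 0 < evalR (xv p q 0 0) r) : 0 ≤ evalR (xv p q 0 0) e := by
  obtain ⟨T, hT⟩ := h
  exact tree_nonneg root2_good (by simp [root2]) (by simp [root2]) (by simp [root2])
    (by simp [root2]) hT (cmem01 hp0 hp1) (cmem01 hq0 hq1) (cmem01 le_rfl zero_le_one)
    (cmem01 le_rfl zero_le_one) hr

/-- Abbreviation for the point with coordinates in the chart. -/
def aX (X Y Z : ℝ) : ℝ := 3 / rPw 6 X Y Z * X ^ 6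
/-- Abbreviation for the point with coordinates in the chart. -/
def aY (X Y Z : ℝ) : ℝ := 3 / rPw 6 X Y Z * Y ^ 6
/-- Abbreviation for the point with coordinates in the chart. -/
def aZ (X Y Z : ℝ) : ℝ := 3 / rPw 6 X Y Z * Z ^ 6

theorem rPw6_pos (p q : ℝ) : 0 < rPw 6 (p * q) q 1 := by
  unfold rPw
  positivity

theorem eval_peH' (x : ℕ → ℝ) (A B C : PE) (L : L2) (hL : wtLe 10 L = true)
    (hM : rPw 6 (evalR x A) (evalR x B) (evalR x C) ≠ 0) :
    evalR x (peH 10 (xSN A B C) (xYN A B C) (xPw 6 A B C) L)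
      = rPw 6 (evalR x A) (evalR x B) (evalR x C) ^ 10
        * ev2 L (3 * sS (aX (evalR x A) (evalR x B) (evalR x C))
            (aY (evalR x A) (evalR x B) (evalR x C)) (aZ (evalR x A) (evalR x B) (evalR x C)))
          (yS (aX (evalR x A) (evalR x B) (evalR x C))
            (aY (evalR x A) (evalR x B) (evalR x C)) (aZ (evalR x A) (evalR x B) (evalR x C))) := by
  rw [eval_peH x 10 _ _ _ L hL (by rw [eval_xPw]; exact hM), eval_xPw, eval_xSN, eval_xYN]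
  simp only [aX, aY, aZ]
  rw [sS_val hM, yS_val hM]

theorem hG_sorted {a b c : ℝ} (ha : 0 ≤ a) (hab : a ≤ b) (hbc : b ≤ c) (hs : a + b + c = 3) :
    ev2 gGL (3 * sS a b c) (yS a b c) ≤ gD * ell a b c := by
  obtain ⟨p, q, hp0, hp1, hq0, hq1, ea, eb, ec⟩ := chart_sorted ha hab hbc hs
  have hr : 0 < evalR (xv p q 0 0) (PE.c 1) := by simp [evalR]
  have h0 := tree_chart hHGT hp0 hp1 hq0 hq1 hr
  have hM := rPw6_pos p q
  have hX : 0 ≤ p * q := mul_nonneg hp0 hq0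
  simp only [eHG, evalR, eval_xPw, eval_xForm, eval_chX1, eval_chX2, eval_chX3] at h0
  have h1 := eval_peH' (xv p q 0 0) chX1 chX2 chX3 gGL gGL_wt
    (by rw [eval_chX1, eval_chX2, eval_chX3]; exact hM.ne')
  simp only [eval_chX1, eval_chX2, eval_chX3] at h1
  rw [h1] at h0
  rw [← ell_val hX hq0 zero_le_one hM] at h0
  have ea' : a = aX (p * q) q 1 := ea
  have eb' : b = aY (p * q) q 1 := eb
  have ec' : c = aZ (p * q) q 1 := ec
  rw [← ea', ← eb', ← ec'] at h0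
  have ea'' : 3 / rPw 6 (p * q) q 1 * (p * q) ^ 6 = a := ea.symm
  have eb'' : 3 / rPw 6 (p * q) q 1 * q ^ 6 = b := eb.symm
  have ec'' : 3 / rPw 6 (p * q) q 1 * 1 ^ 6 = c := ec.symm
  rw [ea'', eb'', ec''] at h0
  push_cast at h0
  have hMp : 0 < rPw 6 (p * q) q 1 ^ 10 := by positivity
  have : 0 ≤ 4 * rPw 6 (p * q) q 1 ^ 10 * ((gD : ℝ) * ell a b c - ev2 gGL (3 * sS a b c) (yS a b c)) := by
    calc (0 : ℝ) ≤ _ := h0
      _ = _ := by ring
  have h5 := nonneg_of_mul_nonneg_right this (by positivity)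
  linarith

/-- The region on the chart from the bound on the largest coordinate. -/
theorem regM_pos {a b c p q : ℝ} (hc : c ≤ 29 / 20) (hc0 : 0 < c)
    (ec : c = 3 / ((p * q) ^ 6 + (q ^ 6 + 1 ^ 6)) * 1 ^ 6) : 0 < evalR (xv p q 0 0) regM := by
  simp only [regM, evalR, eval_xPw, eval_chX1, eval_chX2, eval_chX3]
  have hM := rPw6_pos p q
  have h1 : c = 3 / rPw 6 (p * q) q 1 := by
    rw [ec]
    simp [rPw]
  have h2 : 3 / rPw 6 (p * q) q 1 ≤ 29 / 20 := h1 ▸ hc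
  rw [div_le_iff₀ hM] at h2
  push_cast
  linarith

theorem hU0_sorted {a b c : ℝ} (ha : 0 ≤ a) (hab : a ≤ b) (hbc : b ≤ c) (hs : a + b + c = 3)
    (hc : c ≤ 29 / 20) : gD * eE0 a b c ≤ ev2 gU0L (3 * sS a b c) (yS a b c) := by
  obtain ⟨p, q, hp0, hp1, hq0, hq1, ea, eb, ec⟩ := chart_sorted ha hab hbc hs
  have hr := regM_pos (a := a) (b := b) hc (by linarith) ec
  have h0 := tree_chart hHU0T hp0 hp1 hq0 hq1 hr
  have hM := rPw6_pos p q
  have hX : 0 ≤ p * q := mul_nonneg hp0 hq0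
  simp only [eHU0, evalR, eval_xPw, eval_xForm, eval_chX1, eval_chX2, eval_chX3] at h0
  have h1 := eval_peH' (xv p q 0 0) chX1 chX2 chX3 gU0L gU0L_wt
    (by rw [eval_chX1, eval_chX2, eval_chX3]; exact hM.ne')
  simp only [eval_chX1, eval_chX2, eval_chX3] at h1
  rw [h1] at h0
  rw [← eE0_val hX hq0 zero_le_one hM] at h0
  have ea' : a = aX (p * q) q 1 := ea
  have eb' : b = aY (p * q) q 1 := eb
  have ec' : c = aZ (p * q) q 1 := ec
  rw [← ea', ← eb', ← ec'] at h0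
  have ea'' : 3 / rPw 6 (p * q) q 1 * (p * q) ^ 6 = a := ea.symm
  have eb'' : 3 / rPw 6 (p * q) q 1 * q ^ 6 = b := eb.symm
  have ec'' : 3 / rPw 6 (p * q) q 1 * 1 ^ 6 = c := ec.symm
  rw [ea'', eb'', ec''] at h0
  push_cast at h0
  have hMp : 0 < rPw 6 (p * q) q 1 ^ 10 := by positivity
  have : 0 ≤ 4 * rPw 6 (p * q) q 1 ^ 10 * (ev2 gU0L (3 * sS a b c) (yS a b c) - (gD : ℝ) * eE0 a b c) := by
    calc (0 : ℝ) ≤ _ := h0
      _ = _ := by ring
  have h5 := nonneg_of_mul_nonneg_right this (by positivity)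
  linarith

theorem hU1_sorted {a b c : ℝ} (ha : 0 ≤ a) (hab : a ≤ b) (hbc : b ≤ c) (hs : a + b + c = 3)
    (hc : c ≤ 29 / 20) : gD * eE1 a b c ≤ ev2 gU1L (3 * sS a b c) (yS a b c) := by
  obtain ⟨p, q, hp0, hp1, hq0, hq1, ea, eb, ec⟩ := chart_sorted ha hab hbc hs
  have hr := regM_pos (a := a) (b := b) hc (by linarith) ec
  have h0 := tree_chart hHU1T hp0 hp1 hq0 hq1 hr
  have hM := rPw6_pos p q
  have hX : 0 ≤ p * q := mul_nonneg hp0 hq0
  simp only [eHU1, evalR, eval_xPw, eval_xForm, eval_chX1, eval_chX2, eval_chX3] at h0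
  have h1 := eval_peH' (xv p q 0 0) chX1 chX2 chX3 gU1L gU1L_wt
    (by rw [eval_chX1, eval_chX2, eval_chX3]; exact hM.ne')
  simp only [eval_chX1, eval_chX2, eval_chX3] at h1
  rw [h1] at h0
  rw [← eE1_val hX hq0 zero_le_one hM] at h0
  have ea' : a = aX (p * q) q 1 := ea
  have eb' : b = aY (p * q) q 1 := eb
  have ec' : c = aZ (p * q) q 1 := ec
  rw [← ea', ← eb', ← ec'] at h0
  have ea'' : 3 / rPw 6 (p * q) q 1 * (p * q) ^ 6 = a := ea.symm
  have eb'' : 3 / rPw 6 (p * q) q 1 * q ^ 6 = b := eb.symm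
  have ec'' : 3 / rPw 6 (p * q) q 1 * 1 ^ 6 = c := ec.symm
  rw [ea'', eb'', ec''] at h0
  push_cast at h0
  have hMp : 0 < rPw 6 (p * q) q 1 ^ 10 := by positivity
  have : 0 ≤ 48 * rPw 6 (p * q) q 1 ^ 10 * (ev2 gU1L (3 * sS a b c) (yS a b c) - (gD : ℝ) * eE1 a b c) := by
    calc (0 : ℝ) ≤ _ := h0
      _ = _ := by ring
  have h5 := nonneg_of_mul_nonneg_right this (by positivity)
  linarith

theorem hU3_sorted {a b c : ℝ} (ha : 0 ≤ a) (hab : a ≤ b) (hbc : b ≤ c) (hs : a + b + c = 3)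
    (hc : c ≤ 29 / 20) : gD * ph3 a b c ≤ ev2 gU3L (3 * sS a b c) (yS a b c) := by
  obtain ⟨p, q, hp0, hp1, hq0, hq1, ea, eb, ec⟩ := chart_sorted ha hab hbc hs
  have hr := regM_pos (a := a) (b := b) hc (by linarith) ec
  have h0 := tree_chart hHU3T hp0 hp1 hq0 hq1 hr
  have hM := rPw6_pos p q
  have hX : 0 ≤ p * q := mul_nonneg hp0 hq0
  simp only [eHU3, evalR, eval_xPw, eval_xForm, eval_chX1, eval_chX2, eval_chX3] at h0
  have h1 := eval_peH' (xv p q 0 0) chX1 chX2 chX3 gU3L gU3L_wt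
    (by rw [eval_chX1, eval_chX2, eval_chX3]; exact hM.ne')
  simp only [eval_chX1, eval_chX2, eval_chX3] at h1
  rw [h1] at h0
  rw [← ph3_val hX hq0 zero_le_one hM] at h0
  have ea' : a = aX (p * q) q 1 := ea
  have eb' : b = aY (p * q) q 1 := eb
  have ec' : c = aZ (p * q) q 1 := ec
  rw [← ea', ← eb', ← ec'] at h0
  have ea'' : 3 / rPw 6 (p * q) q 1 * (p * q) ^ 6 = a := ea.symm
  have eb'' : 3 / rPw 6 (p * q) q 1 * q ^ 6 = b := eb.symm
  have ec'' : 3 / rPw 6 (p * q) q 1 * 1 ^ 6 = c := ec.symm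
  rw [ea'', eb'', ec''] at h0
  push_cast at h0
  have hMp : 0 < rPw 6 (p * q) q 1 ^ 10 := by positivity
  have : 0 ≤ rPw 6 (p * q) q 1 ^ 10 * (ev2 gU3L (3 * sS a b c) (yS a b c) - (gD : ℝ) * ph3 a b c) := by
    calc (0 : ℝ) ≤ _ := h0
      _ = _ := by ring
  have h5 := nonneg_of_mul_nonneg_right this (by positivity)
  linarith

theorem hE_sorted {a b c : ℝ} (ha : 0 ≤ a) (hab : a ≤ b) (hbc : b ≤ c) (hs : a + b + c = 3)
    (hc : c ≤ 29 / 20) : ee1 a b c ^ 2 ≤ 37 / 100000 * sS a b c ^ 3 := by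
  obtain ⟨p, q, hp0, hp1, hq0, hq1, ea, eb, ec⟩ := chart_sorted ha hab hbc hs
  have hr := regM_pos (a := a) (b := b) hc (by linarith) ec
  have h0 := tree_chart hHET hp0 hp1 hq0 hq1 hr
  have hM := rPw6_pos p q
  have hX : 0 ≤ p * q := mul_nonneg hp0 hq0
  simp only [eHE, evalR, eval_xPw, eval_xForm, eval_xSN, eval_chX1, eval_chX2, eval_chX3] at h0
  rw [← ee1_val hX hq0 zero_le_one hM] at h0
  have hS := sS_val hM.ne'
  have ea'' : 3 / rPw 6 (p * q) q 1 * (p * q) ^ 6 = a := ea.symm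
  have eb'' : 3 / rPw 6 (p * q) q 1 * q ^ 6 = b := eb.symm
  have ec'' : 3 / rPw 6 (p * q) q 1 * 1 ^ 6 = c := ec.symm
  rw [ea'', eb'', ec''] at h0 hS
  have hSN : rSN (p * q) q 1 = 3 * sS a b c * rPw 6 (p * q) q 1 ^ 2 := by
    rw [hS]
    field_simp
  rw [hSN] at h0
  push_cast at h0
  have hMp : 0 < rPw 6 (p * q) q 1 ^ 6 := by positivity
  have : 0 ≤ 43200000 * rPw 6 (p * q) q 1 ^ 6 * (37 / 100000 * sS a b c ^ 3 - ee1 a b c ^ 2) := by
    calc (0 : ℝ) ≤ _ := h0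
      _ = _ := by ring
  have h5 := nonneg_of_mul_nonneg_right this (by positivity)
  linarith

theorem ell_swap12 (a b c : ℝ) : ell b a c = ell a b c := by
  simp only [ell, ph1, ph2, ph3, f1_swap12 a b c, f2_swap12 a b c, f3_swap12 a b c]
theorem ell_swap23 (a b c : ℝ) : ell a c b = ell a b c := by
  simp only [ell, ph1, ph2, ph3, f1_swap23 a b c, f2_swap23 a b c, f3_swap23 a b c]
theorem eE0_swap12 (a b c : ℝ) : eE0 b a c = eE0 a b c := by
  simp only [eE0, ph1, ph2, ph3, f1_swap12 a b c, f2_swap12 a b c, f3_swap12 a b c]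
theorem eE0_swap23 (a b c : ℝ) : eE0 a c b = eE0 a b c := by
  simp only [eE0, ph1, ph2, ph3, f1_swap23 a b c, f2_swap23 a b c, f3_swap23 a b c]
theorem eE1_swap12 (a b c : ℝ) : eE1 b a c = eE1 a b c := by
  simp only [eE1, ph1, ph2, ph3, f1_swap12 a b c, f2_swap12 a b c, f3_swap12 a b c]
theorem eE1_swap23 (a b c : ℝ) : eE1 a c b = eE1 a b c := by
  simp only [eE1, ph1, ph2, ph3, f1_swap23 a b c, f2_swap23 a b c, f3_swap23 a b c]
theorem ph3_swap12 (a b c : ℝ) : ph3 b a c = ph3 a b c := by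
  simp only [ph3, f3_swap12 a b c]
theorem ph3_swap23 (a b c : ℝ) : ph3 a c b = ph3 a b c := by
  simp only [ph3, f3_swap23 a b c]
theorem ee1_swap12 (a b c : ℝ) : ee1 b a c = ee1 a b c := by
  simp only [ee1, ph1, ph3, f1_swap12 a b c, f3_swap12 a b c]
theorem ee1_swap23 (a b c : ℝ) : ee1 a c b = ee1 a b c := by
  simp only [ee1, ph1, ph3, f1_swap23 a b c, f3_swap23 a b c]

/-- The lower bound on the simplex. -/
theorem hG_all {a b c : ℝ} (ha : 0 ≤ a) (hb : 0 ≤ b) (hc : 0 ≤ c) (hs : a + b + c = 3) :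
    ev2 gGL (3 * sS a b c) (yS a b c) ≤ gD * ell a b c := by
  refine sym3 (fun a b c => 0 ≤ a → 0 ≤ b → 0 ≤ c → a + b + c = 3 →
    ev2 gGL (3 * sS a b c) (yS a b c) ≤ gD * ell a b c) ?_ ?_ ?_ a b c ha hb hc hs
  · intro a b c h h1 h2 h3 h4
    rw [sS_swap12, yS_swap12, ell_swap12]
    exact h h2 h1 h3 (by linarith)
  · intro a b c h h1 h2 h3 h4
    rw [sS_swap23, yS_swap23, ell_swap23]
    exact h h1 h3 h2 (by linarith)
  · intro a b c h1 h2 h3 _ _ h6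
    exact hG_sorted h3 h1 h2 h6

/-- Triples with coordinates in the region for the channel images. -/
def InT (a b c : ℝ) : Prop :=
  0 ≤ a ∧ 0 ≤ b ∧ 0 ≤ c ∧ a + b + c = 3 ∧ a ≤ 29 / 20 ∧ b ≤ 29 / 20 ∧ c ≤ 29 / 20

theorem InT.swap12 {a b c : ℝ} (h : InT b a c) : InT a b c := by
  obtain ⟨h1, h2, h3, h4, h5, h6, h7⟩ := h
  exact ⟨h2, h1, h3, by linarith, h6, h5, h7⟩

theorem InT.swap23 {a b c : ℝ} (h : InT a c b) : InT a b c := by
  obtain ⟨h1, h2, h3, h4, h5, h6, h7⟩ := h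
  exact ⟨h1, h3, h2, by linarith, h5, h7, h6⟩

theorem hU0_all {a b c : ℝ} (h : InT a b c) : gD * eE0 a b c ≤ ev2 gU0L (3 * sS a b c) (yS a b c) := by
  refine sym3 (fun a b c => InT a b c →
    gD * eE0 a b c ≤ ev2 gU0L (3 * sS a b c) (yS a b c)) ?_ ?_ ?_ a b c h
  · intro a b c h h1
    rw [sS_swap12, yS_swap12, eE0_swap12]
    exact h h1.swap12
  · intro a b c h h1
    rw [sS_swap23, yS_swap23, eE0_swap23]
    exact h h1.swap23
  · intro a b c h1 h2 h3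
    exact hU0_sorted h3.1 h1 h2 h3.2.2.2.1 h3.2.2.2.2.2.2

theorem hU1_all {a b c : ℝ} (h : InT a b c) : gD * eE1 a b c ≤ ev2 gU1L (3 * sS a b c) (yS a b c) := by
  refine sym3 (fun a b c => InT a b c →
    gD * eE1 a b c ≤ ev2 gU1L (3 * sS a b c) (yS a b c)) ?_ ?_ ?_ a b c h
  · intro a b c h h1
    rw [sS_swap12, yS_swap12, eE1_swap12]
    exact h h1.swap12
  · intro a b c h h1
    rw [sS_swap23, yS_swap23, eE1_swap23]
    exact h h1.swap23
  · intro a b c h1 h2 h3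
    exact hU1_sorted h3.1 h1 h2 h3.2.2.2.1 h3.2.2.2.2.2.2

theorem hU3_all {a b c : ℝ} (h : InT a b c) : gD * ph3 a b c ≤ ev2 gU3L (3 * sS a b c) (yS a b c) := by
  refine sym3 (fun a b c => InT a b c →
    gD * ph3 a b c ≤ ev2 gU3L (3 * sS a b c) (yS a b c)) ?_ ?_ ?_ a b c h
  · intro a b c h h1
    rw [sS_swap12, yS_swap12, ph3_swap12]
    exact h h1.swap12
  · intro a b c h h1
    rw [sS_swap23, yS_swap23, ph3_swap23]
    exact h h1.swap23
  · intro a b c h1 h2 h3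
    exact hU3_sorted h3.1 h1 h2 h3.2.2.2.1 h3.2.2.2.2.2.2

theorem hE_all {a b c : ℝ} (h : InT a b c) : ee1 a b c ^ 2 ≤ 37 / 100000 * sS a b c ^ 3 := by
  refine sym3 (fun a b c => InT a b c →
    ee1 a b c ^ 2 ≤ 37 / 100000 * sS a b c ^ 3) ?_ ?_ ?_ a b c h
  · intro a b c h h1
    rw [sS_swap12, ee1_swap12]
    exact h h1.swap12
  · intro a b c h h1
    rw [sS_swap23, ee1_swap23]
    exact h h1.swap23
  · intro a b c h1 h2 h3
    exact hE_sorted h3.1 h1 h2 h3.2.2.2.1 h3.2.2.2.2.2.2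

end Vale.Agent.Lib.P154M
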