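import Vale.Agent.Lib.P154M.Point
import Vale.Agent.Lib.P154M.FinG

/-!
The pointwise inequality on the simplex for the Lagrangian at a given reference value.
-/

noncomputable section

namespace Vale.Agent.Lib.P154M

open Vale.Agent.Lib.Common.Kron Vale.Agent.Lib.Common.Kron.PE

/-- Parametrisation of the simplex by `r` and `t`. -/
theorem exists_rt (a b c : ℝ) : 0 ≤ a → 0 ≤ b → 0 ≤ c → a + b + c = 3 →
    ∃ r t : ℝ, 0 ≤ r ∧ r ≤ 1 ∧ 1 / 2 ≤ t ∧ t ≤ 2 ∧ 3 * sS a b c = s3R r t ∧ yS a b c = yyR r t := by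
  refine sym3 (fun a b c => 0 ≤ a → 0 ≤ b → 0 ≤ c → a + b + c = 3 →
    ∃ r t : ℝ, 0 ≤ r ∧ r ≤ 1 ∧ 1 / 2 ≤ t ∧ t ≤ 2 ∧ 3 * sS a b c = s3R r t ∧ yS a b c = yyR r t)
    ?_ ?_ ?_ a b c
  · intro a b c h h1 h2 h3 h4
    rw [sS_swap12, yS_swap12]
    exact h h2 h1 h3 (by linarith)
  · intro a b c h h1 h2 h3 h4
    rw [sS_swap23, yS_swap23]
    exact h h1 h3 h2 (by linarith)
  · intro a b c hab hbc ha _ _ hs
    have hb' : b = 3 - a - c := by linarith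
    by_cases hr : a = 1
    · have hb1 : b = 1 := by linarith
      have hc1 : c = 1 := by linarith
      refine ⟨0, 1, le_rfl, zero_le_one, by norm_num, by norm_num, ?_, ?_⟩
      · simp [sS, s3R, hr, hb1, hc1]
      · simp [yS, yyR, hr, hb1, hc1]
    · have ha1 : a ≤ 1 := by linarith
      have hr0 : 0 < 1 - a := lt_of_le_of_ne (by linarith) (fun h => hr (by linarith))
      refine ⟨1 - a, (c - 1) / (1 - a), hr0.le, by linarith, ?_, ?_, ?_, ?_⟩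
      · rw [le_div_iff₀ hr0]
        linarith
      · rw [div_le_iff₀ hr0]
        linarith
      · unfold sS s3R
        rw [hb']
        field_simp
        ring
      · unfold yS yyR
        rw [hb']
        field_simp
        ring

section point
variable {u i w : ℝ} {a0 a1 a2 : ℝ}

theorem sS_scale (u a0 a1 a2 : ℝ) :
    sS (-u * a0 + (1 - -u)) (-u * a1 + (1 - -u)) (-u * a2 + (1 - -u)) = u ^ 2 * sS a0 a1 a2 := by
  unfold sS
  ring

theorem yS_scale (u a0 a1 a2 : ℝ) :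
    yS (-u * a0 + (1 - -u)) (-u * a1 + (1 - -u)) (-u * a2 + (1 - -u)) = -(u ^ 3 * yS a0 a1 a2) := by
  unfold yS
  ring

/-- The channel image lies in the region. -/
theorem inT_chan (hu0 : 0 < u) (hu1 : u ≤ 9 / 20) (h0 : 0 ≤ a0) (h1 : 0 ≤ a1) (h2 : 0 ≤ a2)
    (hs : a0 + a1 + a2 = 3) :
    InT (-u * a0 + (1 - -u)) (-u * a1 + (1 - -u)) (-u * a2 + (1 - -u)) := by
  have b0 : a0 ≤ 3 := by linarith
  have b1 : a1 ≤ 3 := by linarith
  have b2 : a2 ≤ 3 := by linarith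
  refine ⟨?_, ?_, ?_, ?_, ?_, ?_, ?_⟩
  · nlinarith
  · nlinarith
  · nlinarith
  · have : -u * a0 + (1 - -u) + (-u * a1 + (1 - -u)) + (-u * a2 + (1 - -u))
        = -u * (a0 + a1 + a2) + 3 + 3 * u := by ring
    rw [this, hs]
    ring
  · nlinarith
  · nlinarith
  · nlinarith

/-- Upper bound for a scaled defect. -/
theorem scaled_le {P : L2} (hP : wtGe2 P = true) {f s y : ℝ} (hu0 : 0 < u)
    (h : (gD : ℝ) * f ≤ ev2 P (3 * (u ^ 2 * s)) (-(u ^ 3 * y))) :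
    f / u ^ 2 ≤ ev2u P u (3 * s) y / gD := by
  have e := ev2u_mul u (3 * s) y P hP
  have e2 : u ^ 2 * (3 * s) = 3 * (u ^ 2 * s) := by ring
  rw [e2] at e
  rw [← e] at h
  have hg : (0 : ℝ) < gD := by norm_num [gD]
  have hu2 : 0 < u ^ 2 := by positivity
  rw [div_le_div_iff₀ hu2 hg]
  nlinarith

/-- The pointwise inequality. -/
theorem pm_point (hu0 : 0 < u) (hu1 : u ≤ 9 / 20) (h0 : 0 ≤ a0) (h1 : 0 ≤ a1) (h2 : 0 ≤ a2)
    (hs : a0 + a1 + a2 = 3) (hw0 : 0 ≤ w) (hw1 : w ≤ 21 / 10) (hi0 : 0 ≤ i) (hi1 : i ≤ 1 / 5)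
    (hmH : ∀ r t, 0 ≤ r → r ≤ 1 → 1 / 2 ≤ t → t ≤ 2 → 0 ≤ mH i u w (s3R r t) (yyR r t)) :
    0 ≤ ell a0 a1 a2 - sS a0 a1 a2 ^ 2 / 1000
      - 9 * (ee1 (-u * a0 + (1 - -u)) (-u * a1 + (1 - -u)) (-u * a2 + (1 - -u)) / u ^ 2) ^ 2
      - aaH i w * (eE0 (-u * a0 + (1 - -u)) (-u * a1 + (1 - -u)) (-u * a2 + (1 - -u)) / u ^ 2)
      - bbH i w * (eE1 (-u * a0 + (1 - -u)) (-u * a1 + (1 - -u)) (-u * a2 + (1 - -u)) / u ^ 2)
      - lamH w * (ph3 (-u * a0 + (1 - -u)) (-u * a1 + (1 - -u)) (-u * a2 + (1 - -u)) / u ^ 2 - w)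
      - fFH i w := by
  obtain ⟨r, t, hr0, hr1, ht0, ht1, es, ey⟩ := exists_rt a0 a1 a2 h0 h1 h2 hs
  have hm := hmH r t hr0 hr1 ht0 ht1
  rw [← es, ← ey] at hm
  have hT := inT_chan (u := u) hu0 hu1 h0 h1 h2 hs
  have hG := hG_all h0 h1 h2 hs
  have hU0 := hU0_all hT
  have hU1 := hU1_all hT
  have hU3 := hU3_all hT
  have hE := hE_all hT
  rw [sS_scale, yS_scale] at hU0 hU1 hU3
  rw [sS_scale] at hE
  have b0 := scaled_le (P := gU0L) (by decide) hu0 hU0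
  have b1 := scaled_le (P := gU1L) (by decide) hu0 hU1
  have b3 := scaled_le (P := gU3L) (by decide) hu0 hU3
  have hg : (0 : ℝ) < gD := by norm_num [gD]
  have hG' : ev2 gGL (3 * sS a0 a1 a2) (yS a0 a1 a2) / gD ≤ ell a0 a1 a2 := by
    rw [div_le_iff₀ hg]
    linarith
  have haa := aaH_nonneg hw0 hw1 hi0 hi1
  have hbb := bbH_nonneg hw0 hw1 hi0 hi1
  have hll := lamH_nonneg hw0 (by linarith : w ≤ 9 / 4)
  have c0 := mul_le_mul_of_nonneg_left b0 haa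
  have c1 := mul_le_mul_of_nonneg_left b1 hbb
  have c3 := mul_le_mul_of_nonneg_left (sub_le_sub_right b3 w) hll
  have hu2 : 0 < u ^ 2 := by positivity
  have hQ : 9 * (ee1 (-u * a0 + (1 - -u)) (-u * a1 + (1 - -u)) (-u * a2 + (1 - -u)) / u ^ 2) ^ 2
      ≤ 37 * u ^ 2 * (3 * sS a0 a1 a2) ^ 3 / 300000 := by
    rw [div_pow, ← mul_div_assoc, div_le_iff₀ (by positivity)]
    have e : 37 * u ^ 2 * (3 * sS a0 a1 a2) ^ 3 / 300000 * (u ^ 2) ^ 2
        = 9 * (37 / 100000 * (u ^ 2 * sS a0 a1 a2) ^ 3) := by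
      ring
    rw [e]
    linarith
  unfold mH at hm
  have hss : (3 * sS a0 a1 a2) ^ 2 / 9000 = sS a0 a1 a2 ^ 2 / 1000 := by ring
  rw [hss] at hm
  linarith

end point

end Vale.Agent.Lib.P154M
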