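import Vale.Agent.Lib.P154M.Box

/-!
Polynomials in two variables given by lists of integer coefficients and exponents, with their
expressions for the Kronecker check.
-/

noncomputable section

namespace Vale.Agent.Lib.P154M

open Vale.Agent.Lib.Common.Kron Vale.Agent.Lib.Common.Kron.PE

/-- Sparse polynomials in two variables. -/
abbrev L2 := List (ℤ × ℕ × ℕ)

/-- Value of a sparse polynomial. -/
def ev2 (P : L2) (s y : ℝ) : ℝ := (P.map fun m => (m.1 : ℝ) * (s ^ m.2.1 * y ^ m.2.2)).sum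

/-- An integer constant as an expression. -/
def zE : ℤ → PE
  | Int.ofNat n => c n
  | Int.negSucc n => neg (c (n + 1))

theorem eval_zE (x : ℕ → ℝ) (z : ℤ) : evalR x (zE z) = (z : ℝ) := by
  cases z with
  | ofNat n => simp [zE, evalR]
  | negSucc n =>
    simp only [zE, evalR, Int.cast_negSucc]

/-- Expression for a sparse polynomial at given subexpressions. -/
def pe2 (S Y : PE) : L2 → PE
  | [] => c 0
  | m :: P => PE.add (PE.mul (zE m.1) (PE.mul (PE.pow S m.2.1) (PE.pow Y m.2.2))) (pe2 S Y P)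

theorem eval_pe2 (x : ℕ → ℝ) (S Y : PE) (P : L2) :
    evalR x (pe2 S Y P) = ev2 P (evalR x S) (evalR x Y) := by
  induction P with
  | nil => simp [pe2, evalR, ev2]
  | cons m P ih =>
    simp only [pe2, evalR, eval_zE, ih, ev2, List.map_cons, List.sum_cons]

/-- All monomials have weighted degree at most `N`. -/
def wtLe (N : ℕ) (P : L2) : Bool := P.all fun m => Nat.ble (2 * m.2.1 + 3 * m.2.2) N

/-- Homogenised expression: `M ^ N * P (S / M ^ 2, Y / M ^ 3)`. -/
def peH (N : ℕ) (S Y M : PE) : L2 → PE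
  | [] => c 0
  | m :: P =>
      PE.add (PE.mul (zE m.1) (PE.mul (PE.pow S m.2.1)
        (PE.mul (PE.pow Y m.2.2) (PE.pow M (N - (2 * m.2.1 + 3 * m.2.2)))))) (peH N S Y M P)

theorem eval_peH (x : ℕ → ℝ) (N : ℕ) (S Y M : PE) (P : L2) (hP : wtLe N P = true)
    (hM : evalR x M ≠ 0) :
    evalR x (peH N S Y M P)
      = evalR x M ^ N * ev2 P (evalR x S / evalR x M ^ 2) (evalR x Y / evalR x M ^ 3) := by
  induction P with
  | nil => simp [peH, evalR, ev2]
  | cons m P ih =>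
    simp only [wtLe, List.all_cons, Bool.and_eq_true] at hP
    have hm := Nat.le_of_ble_eq_true hP.1
    have := ih hP.2
    simp only [peH, evalR, eval_zE, this, ev2, List.map_cons, List.sum_cons]
    rw [mul_add]
    congr 1
    set M' := evalR x M
    have h1 : M' ^ N = M' ^ (N - (2 * m.2.1 + 3 * m.2.2)) * (M' ^ 2) ^ m.2.1 * (M' ^ 3) ^ m.2.2 := by
      rw [← pow_mul, ← pow_mul, mul_assoc, ← pow_add, ← pow_add]
      congr 1
      omega
    rw [h1, div_pow, div_pow]
    have h2 : (M' ^ 2) ^ m.2.1 ≠ 0 := pow_ne_zero _ (pow_ne_zero _ hM)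
    have h3 : (M' ^ 3) ^ m.2.2 ≠ 0 := pow_ne_zero _ (pow_ne_zero _ hM)
    field_simp

/-- Expression for `mu ^ 2 * P (mu ^ 2 * s, - mu ^ 3 * y) / mu ^ 4` style scaling: monomial
`c s ^ i y ^ j` goes to `c (-1) ^ j mu ^ (2 i + 3 j - 2) s ^ i y ^ j`. -/
def peMu (U S Y : PE) : L2 → PE
  | [] => c 0
  | m :: P =>
      PE.add (PE.mul (if m.2.2 % 2 = 0 then zE m.1 else neg (zE m.1))
        (PE.mul (PE.pow U (2 * m.2.1 + 3 * m.2.2 - 2))
          (PE.mul (PE.pow S m.2.1) (PE.pow Y m.2.2)))) (peMu U S Y P)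

/-- All monomials have weighted degree at least two. -/
def wtGe2 (P : L2) : Bool := P.all fun m => Nat.ble 2 (2 * m.2.1 + 3 * m.2.2)

theorem eval_peMu (x : ℕ → ℝ) (U S Y : PE) (P : L2) (hP : wtGe2 P = true) :
    evalR x U ^ 2 * evalR x (peMu U S Y P)
      = ev2 P (evalR x U ^ 2 * evalR x S) (-(evalR x U ^ 3 * evalR x Y)) := by
  induction P with
  | nil => simp [peMu, evalR, ev2]
  | cons m P ih =>
    simp only [wtGe2, List.all_cons, Bool.and_eq_true] at hP
    have hm := Nat.le_of_ble_eq_true hP.1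
    have := ih hP.2
    simp only [peMu, evalR, ev2, List.map_cons, List.sum_cons] at this ⊢
    rw [mul_add, this]
    congr 1
    set u := evalR x U
    set s := evalR x S
    set y := evalR x Y
    have h1 : u ^ 2 * u ^ (2 * m.2.1 + 3 * m.2.2 - 2) = (u ^ 2) ^ m.2.1 * (u ^ 3) ^ m.2.2 := by
      rw [← pow_add, ← pow_mul, ← pow_mul, ← pow_add]
      congr 1
      omega
    have h2 : (-(u ^ 3 * y)) ^ m.2.2
        = (if m.2.2 % 2 = 0 then (1 : ℝ) else -1) * ((u ^ 3) ^ m.2.2 * y ^ m.2.2) := by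
      rw [neg_pow, mul_pow]
      congr 1
      split_ifs with h
      · exact Even.neg_one_pow (Nat.even_iff.2 h)
      · exact Odd.neg_one_pow (Nat.odd_iff.2 (by omega))
    rw [h2, mul_pow]
    have h3 : evalR x (if m.2.2 % 2 = 0 then zE m.1 else neg (zE m.1))
        = (if m.2.2 % 2 = 0 then (1 : ℝ) else -1) * (m.1 : ℝ) := by
      split_ifs with h <;> simp [evalR, eval_zE]
    rw [h3]
    calc u ^ 2 * ((if m.2.2 % 2 = 0 then (1 : ℝ) else -1) * (m.1 : ℝ)
          * (u ^ (2 * m.2.1 + 3 * m.2.2 - 2) * (s ^ m.2.1 * y ^ m.2.2)))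
        = (u ^ 2 * u ^ (2 * m.2.1 + 3 * m.2.2 - 2)) * ((if m.2.2 % 2 = 0 then (1 : ℝ) else -1)
          * (m.1 : ℝ) * (s ^ m.2.1 * y ^ m.2.2)) := by ring
      _ = _ := by rw [h1]; ring

/-- Value of the scaled expression. -/
def ev2u (P : L2) (u s y : ℝ) : ℝ :=
  (P.map fun m => (if m.2.2 % 2 = 0 then (1 : ℝ) else -1) * (m.1 : ℝ)
    * (u ^ (2 * m.2.1 + 3 * m.2.2 - 2) * (s ^ m.2.1 * y ^ m.2.2))).sum

theorem eval_peMu' (x : ℕ → ℝ) (U S Y : PE) (P : L2) :
    evalR x (peMu U S Y P) = ev2u P (evalR x U) (evalR x S) (evalR x Y) := by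
  induction P with
  | nil => simp [peMu, evalR, ev2u]
  | cons m P ih =>
    have h3 : evalR x (if m.2.2 % 2 = 0 then zE m.1 else neg (zE m.1))
        = (if m.2.2 % 2 = 0 then (1 : ℝ) else -1) * (m.1 : ℝ) := by
      split_ifs with h <;> simp [evalR, eval_zE]
    simp only [peMu, evalR, ev2u, List.map_cons, List.sum_cons, h3] at ih ⊢
    rw [ih]

theorem ev2u_mul (u s y : ℝ) (P : L2) (hP : wtGe2 P = true) :
    u ^ 2 * ev2u P u s y = ev2 P (u ^ 2 * s) (-(u ^ 3 * y)) := by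
  have h := eval_peMu (fun i => match i with | 0 => u | 1 => s | _ => y) (v 0) (v 1) (v 2) P hP
  rw [eval_peMu'] at h
  simpa [evalR] using h

end Vale.Agent.Lib.P154M
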