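import Vale.Agent.Lib.P154M.PointM
import Vale.Agent.Lib.P154M.Charts
import Vale.Agent.Lib.P154.MellinLyap

/-!
The drift inequality for the Mellin Lyapunov function at the level of abstract expectations.
-/

noncomputable section

namespace Vale.Agent.Lib.P154M

open Vale.Agent.Lib.P154 Vale.Agent.Lib.P154P Vale.Agent.Lib.P154.Mellin

/-- The exponent (4,1,1)/6. -/
def c1 : Vc := ![ex 4, ex 1, ex 1]
/-- The exponent (3,2,1)/6. -/
def c2 : Vc := ![ex 3, ex 2, ex 1]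
/-- The exponent (2,2,2)/6. -/
def c3 : Vc := ![ex 2, ex 2, ex 2]

theorem ex_nonneg (n : ℕ) : 0 ≤ ex n := by
  unfold ex
  positivity

theorem c1_exp : IsExp c1 := by
  refine ⟨fun i => ?_, ?_⟩
  · fin_cases i <;> simp [c1, ex_nonneg]
  · simp [c1, ex]
    norm_num

theorem c2_exp : IsExp c2 := by
  refine ⟨fun i => ?_, ?_⟩
  · fin_cases i <;> simp [c2, ex_nonneg]
  · simp [c2, ex]
    norm_num

theorem c3_exp : IsExp c3 := by
  refine ⟨fun i => ?_, ?_⟩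
  · fin_cases i <;> simp [c3, ex_nonneg]
  · simp [c3, ex]
    norm_num

theorem fhat_c1 (a : Vc) : fhat c1 a = f1 (a 0) (a 1) (a 2) := by
  simp only [fhat, c1, f1, Matrix.cons_val_zero, Matrix.cons_val_one, Matrix.cons_val]
  ring

theorem fhat_c2 (a : Vc) : fhat c2 a = f2 (a 0) (a 1) (a 2) := by
  simp only [fhat, c2, f2, Matrix.cons_val_zero, Matrix.cons_val_one, Matrix.cons_val]
  ring

theorem fhat_c3 (a : Vc) : fhat c3 a = f3 (a 0) (a 1) (a 2) := by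
  simp only [fhat, c3, f3, Matrix.cons_val_zero, Matrix.cons_val_one, Matrix.cons_val]
  ring

theorem root6 {x : ℝ} (hx : 0 ≤ x) : 1 * (x ^ ((1 : ℝ) / 6)) ^ 6 = x := by
  rw [one_mul, ← Real.rpow_natCast, ← Real.rpow_mul hx]
  norm_num

/-- The mean with exponent (2,2,2)/6 is the smallest. -/
theorem f3_le_f1 {x y z : ℝ} (hx : 0 ≤ x) (hy : 0 ≤ y) (hz : 0 ≤ z) : f3 x y z ≤ f1 x y z := by
  have hX := Real.rpow_nonneg hx ((1 : ℝ) / 6)
  have hY := Real.rpow_nonneg hy ((1 : ℝ) / 6)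
  have hZ := Real.rpow_nonneg hz ((1 : ℝ) / 6)
  set X := x ^ ((1 : ℝ) / 6)
  set Y := y ^ ((1 : ℝ) / 6)
  set Z := z ^ ((1 : ℝ) / 6)
  have ex' : x = 1 * X ^ 6 := (root6 hx).symm
  have ey' : y = 1 * Y ^ 6 := (root6 hy).symm
  have ez' : z = 1 * Z ^ 6 := (root6 hz).symm
  rw [ex', ey', ez', f3_val one_pos hX hY hZ, f1_val one_pos hX hY hZ]
  have h0 : 0 ≤ X * (Y * Z) := by positivity
  have h1 : 3 * (X * (Y * Z)) ≤ X ^ 3 + (Y ^ 3 + Z ^ 3) := by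
    nlinarith [mul_nonneg (add_nonneg (add_nonneg hX hY) hZ)
      (add_nonneg (add_nonneg (sq_nonneg (X - Y)) (sq_nonneg (Y - Z))) (sq_nonneg (X - Z)))]
  have h2 := mul_le_mul_of_nonneg_left h1 h0
  nlinarith

/-- The mean with exponent (2,2,2)/6 is the smallest. -/
theorem f3_le_f2 {x y z : ℝ} (hx : 0 ≤ x) (hy : 0 ≤ y) (hz : 0 ≤ z) : f3 x y z ≤ f2 x y z := by
  have hX := Real.rpow_nonneg hx ((1 : ℝ) / 6)
  have hY := Real.rpow_nonneg hy ((1 : ℝ) / 6)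
  have hZ := Real.rpow_nonneg hz ((1 : ℝ) / 6)
  set X := x ^ ((1 : ℝ) / 6)
  set Y := y ^ ((1 : ℝ) / 6)
  set Z := z ^ ((1 : ℝ) / 6)
  have ex' : x = 1 * X ^ 6 := (root6 hx).symm
  have ey' : y = 1 * Y ^ 6 := (root6 hy).symm
  have ez' : z = 1 * Z ^ 6 := (root6 hz).symm
  rw [ex', ey', ez', f3_val one_pos hX hY hZ, f2_val one_pos hX hY hZ]
  have h0 : 0 ≤ X * (Y * Z) := by positivity
  have h1 : 6 * (X * (Y * Z)) ≤ X ^ 2 * (Y + Z) + (Y ^ 2 * (X + Z) + Z ^ 2 * (X + Y)) := by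
    nlinarith [mul_nonneg hX (sq_nonneg (Y - Z)), mul_nonneg hY (sq_nonneg (X - Z)),
      mul_nonneg hZ (sq_nonneg (X - Y))]
  have h2 := mul_le_mul_of_nonneg_left h1 h0
  nlinarith

section slevel

variable {E : (Vc → ℝ) → ℝ} {u i : ℝ}

/-- Linearity for a combination of nine bounded functions. -/
theorem E_lin9 (hE : IsEx E) {g1 g2 g3 g4 g5 g6 g7 g8 : Vc → ℝ}
    (h1 : BddS g1) (h2 : BddS g2) (h3 : BddS g3) (h4 : BddS g4) (h5 : BddS g5) (h6 : BddS g6)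
    (h7 : BddS g7) (h8 : BddS g8) (k1 k2 k3 k4 k5 k6 k7 k8 k : ℝ) :
    E (fun a => k1 * g1 a + k2 * g2 a + k3 * g3 a + k4 * g4 a + k5 * g5 a + k6 * g6 a + k7 * g7 a
        + k8 * g8 a + k)
      = k1 * E g1 + k2 * E g2 + k3 * E g3 + k4 * E g4 + k5 * E g5 + k6 * E g6 + k7 * E g7
        + k8 * E g8 + k := by
  have b1 := BddS.const_mul k1 h1
  have b2 := BddS.const_mul k2 h2
  have b3 := BddS.const_mul k3 h3
  have b4 := BddS.const_mul k4 h4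
  have b5 := BddS.const_mul k5 h5
  have b6 := BddS.const_mul k6 h6
  have b7 := BddS.const_mul k7 h7
  have b8 := BddS.const_mul k8 h8
  rw [hE.add _ _ (((((((b1.add b2).add b3).add b4).add b5).add b6).add b7).add b8) (BddS.const k),
    hE.add _ _ (((((((b1.add b2).add b3).add b4).add b5).add b6).add b7)) b8,
    hE.add _ _ (((((((b1.add b2).add b3).add b4).add b5).add b6))) b7,
    hE.add _ _ ((((((b1.add b2).add b3).add b4).add b5))) b6,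
    hE.add _ _ (((((b1.add b2).add b3).add b4))) b5,
    hE.add _ _ ((((b1.add b2).add b3))) b4,
    hE.add _ _ (((b1.add b2))) b3,
    hE.add _ _ b1 b2, hE.const,
    hE.const_mul _ _ h1, hE.const_mul _ _ h2, hE.const_mul _ _ h3, hE.const_mul _ _ h4,
    hE.const_mul _ _ h5, hE.const_mul _ _ h6, hE.const_mul _ _ h7, hE.const_mul _ _ h8]

theorem E_lin9_bdd {g1 g2 g3 g4 g5 g6 g7 g8 : Vc → ℝ}
    (h1 : BddS g1) (h2 : BddS g2) (h3 : BddS g3) (h4 : BddS g4) (h5 : BddS g5) (h6 : BddS g6)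
    (h7 : BddS g7) (h8 : BddS g8) (k1 k2 k3 k4 k5 k6 k7 k8 k : ℝ) :
    BddS (fun a => k1 * g1 a + k2 * g2 a + k3 * g3 a + k4 * g4 a + k5 * g5 a + k6 * g6 a + k7 * g7 a
        + k8 * g8 a + k) :=
  (((((((((BddS.const_mul k1 h1).add (BddS.const_mul k2 h2)).add (BddS.const_mul k3 h3)).add
    (BddS.const_mul k4 h4)).add (BddS.const_mul k5 h5)).add (BddS.const_mul k6 h6)).add
    (BddS.const_mul k7 h7)).add (BddS.const_mul k8 h8))).add (BddS.const k)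

theorem bddF {c : Vc} (hc : IsExp c) (hu0 : 0 ≤ u) (hu1 : u ≤ 1 / 2) :
    BddS (fun a => fhat c (Ch (-u) a)) :=
  (bdd_fhat hc).comp_Ch (by linarith) (by linarith)

/-- Bound for the third defect along the channel. -/
theorem ph3_chan_le (hu0 : 0 < u) (hu1 : u ≤ 9 / 20) {a : Vc} (ha : InS a) :
    1 - (21 / 10) * u ^ 2 ≤ fhat c3 (Ch (-u) a) := by
  have h0 := ha.1 0
  have h1 := ha.1 1
  have h2 := ha.1 2
  have hs := ha.2
  have hT := inT_chan (u := u) hu0 hu1 h0 h1 h2 hs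
  have hU3 := hU3_all hT
  rw [sS_scale, yS_scale] at hU3
  have b3 := scaled_le (P := gU3L) (by decide) hu0 hU3
  obtain ⟨r, t, hr0, hr1, ht0, ht1, es, ey⟩ := exists_rt (a 0) (a 1) (a 2) h0 h1 h2 hs
  rw [es, ey] at b3
  have hb := a3_bound hr0 hr1 ht0 ht1 hu0.le hu1
  have hu2 : 0 < u ^ 2 := by positivity
  have h3 := b3.trans hb
  rw [div_le_iff₀ hu2] at h3
  rw [fhat_c3]
  change 1 - (21 / 10) * u ^ 2 ≤ f3 (-u * a 0 + (1 - -u)) (-u * a 1 + (1 - -u)) (-u * a 2 + (1 - -u))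
  unfold ph3 at h3
  linarith

/-- The squared difference along the channel. -/
def qQ (u : ℝ) (a : Vc) : ℝ := ee1 (Ch (-u) a 0) (Ch (-u) a 1) (Ch (-u) a 2) / u ^ 2

theorem qQ_eq (u : ℝ) (a : Vc) :
    qQ u a = (-(1 / u ^ 2)) * fhat c1 (Ch (-u) a) + (3 / 4 / u ^ 2) * fhat c3 (Ch (-u) a)
      + 1 / 4 / u ^ 2 := by
  simp only [qQ, ee1, ph1, ph3]
  rw [fhat_c1, fhat_c3]
  ring

theorem bdd_qQ (hu0 : 0 ≤ u) (hu1 : u ≤ 1 / 2) : BddS (qQ u) := by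
  have : BddS (fun a => (-(1 / u ^ 2)) * fhat c1 (Ch (-u) a) + (3 / 4 / u ^ 2) * fhat c3 (Ch (-u) a)
      + 1 / 4 / u ^ 2) :=
    (((bddF c1_exp hu0 hu1).const_mul _).add ((bddF c3_exp hu0 hu1).const_mul _)).add (BddS.const _)
  exact this.congr fun a _ => (qQ_eq u a).symm

/-- Jensen for the squared difference. -/
theorem qQ_jensen (hE : IsEx E) (hu0 : 0 < u) (hu1 : u ≤ 1 / 2) :
    (((1 - E (fun a => fhat c1 (Ch (-u) a))) - 3 / 4 * (1 - E (fun a => fhat c3 (Ch (-u) a)))) / u ^ 2) ^ 2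
      ≤ E (fun a => qQ u a ^ 2) := by
  have hJ := hE.sq_le (bdd_qQ hu0.le hu1)
  have e : qQ u = fun a => (-(1 / u ^ 2)) * fhat c1 (Ch (-u) a) + (3 / 4 / u ^ 2) * fhat c3 (Ch (-u) a)
      + 1 / 4 / u ^ 2 := funext (qQ_eq u)
  have B1 := bddF c1_exp hu0.le hu1
  have B3 := bddF c3_exp hu0.le hu1
  have hQ1 : E (qQ u) = ((1 - E (fun a => fhat c1 (Ch (-u) a)))
      - 3 / 4 * (1 - E (fun a => fhat c3 (Ch (-u) a)))) / u ^ 2 := by
    rw [e, hE.add _ _ ((B1.const_mul _).add (B3.const_mul _)) (BddS.const _),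
      hE.add _ _ (B1.const_mul _) (B3.const_mul _), hE.const_mul _ _ B1, hE.const_mul _ _ B3, hE.const]
    ring
  rwa [hQ1] at hJ

/-- The pointwise inequality in linear form. -/
theorem pm_linear (hu0 : 0 < u) (hu1 : u ≤ 9 / 20) (hi0 : 0 ≤ i) (hi1 : i ≤ 1 / 5) {v aa bb lam ff : ℝ}
    (hv0 : 0 ≤ v) (hvle : v ≤ 21 / 10) (haa : aaH i v = aa) (hbb : bbH i v = bb) (hlam : lamH v = lam)
    (hff : fFH i v = ff)
    (hmH : ∀ r t, 0 ≤ r → r ≤ 1 → 1 / 2 ≤ t → t ≤ 2 → 0 ≤ mH i u v (s3R r t) (yyR r t))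
    {a : Vc} (ha : InS a) :
    0 ≤ 18 * fhat c1 a + (-75) * fhat c2 a + (213 / 4) * fhat c3 a + (-(1 / 1000)) * sF a ^ 2
        + (-9) * qQ u a ^ 2
        + ((-(aa * 18) - bb * (9 / 2)) / u ^ 2) * fhat c1 (Ch (-u) a)
        + ((aa * 75 + bb * (25 / 4)) / u ^ 2) * fhat c2 (Ch (-u) a)
        + ((-(aa * (221 / 4)) - bb * (113 / 48) + lam) / u ^ 2) * fhat c3 (Ch (-u) a)
        + (-18 + 75 - 213 / 4
            - (aa * (-18 + 75 - 221 / 4) + bb * (-(9 / 2) + 25 / 4 - 113 / 48) + lam) / u ^ 2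
            + lam * v - ff) := by
  have h := pm_point (u := u) (i := i) (w := v) hu0 hu1 (ha.1 0) (ha.1 1) (ha.1 2) ha.2 hv0 hvle
    hi0 hi1 hmH
  have e0 : sS (a 0) (a 1) (a 2) = sF a := rfl
  rw [e0] at h
  simp only [qQ]
  rw [fhat_c1, fhat_c2, fhat_c3, fhat_c1 (Ch (-u) a), fhat_c2 (Ch (-u) a), fhat_c3 (Ch (-u) a)]
  simp only [Ch]
  simp only [ell, eE0, eE1, ph1, ph2, ph3] at h
  rw [haa, hbb, hlam, hff] at h
  convert h using 1
  ring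

/-- The integrated inequality. -/
theorem pm_integrated (hE : IsEx E) (hu0 : 0 < u) (hu1 : u ≤ 9 / 20) (hi0 : 0 ≤ i) (hi1 : i ≤ 1 / 5)
    {v : ℝ} (hv0 : 0 ≤ v) (hvle : v ≤ 21 / 10)
    (hmH : ∀ r t, 0 ≤ r → r ≤ 1 → 1 / 2 ≤ t → t ≤ 2 → 0 ≤ mH i u v (s3R r t) (yyR r t)) :
    0 ≤ 18 * E (fhat c1) + (-75) * E (fhat c2) + (213 / 4) * E (fhat c3)
        + (-(1 / 1000)) * E (fun a => sF a ^ 2) + (-9) * E (fun a => qQ u a ^ 2)
        + ((-(aaH i v * 18) - bbH i v * (9 / 2)) / u ^ 2) * E (fun a => fhat c1 (Ch (-u) a))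
        + ((aaH i v * 75 + bbH i v * (25 / 4)) / u ^ 2) * E (fun a => fhat c2 (Ch (-u) a))
        + ((-(aaH i v * (221 / 4)) - bbH i v * (113 / 48) + lamH v) / u ^ 2)
            * E (fun a => fhat c3 (Ch (-u) a))
        + (-18 + 75 - 213 / 4
            - (aaH i v * (-18 + 75 - 221 / 4) + bbH i v * (-(9 / 2) + 25 / 4 - 113 / 48) + lamH v)
              / u ^ 2
            + lamH v * v - fFH i v) := by
  have hu12 : u ≤ 1 / 2 := by linarith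
  have B1 := bddF c1_exp hu0.le hu12
  have B2 := bddF c2_exp hu0.le hu12
  have B3 := bddF c3_exp hu0.le hu12
  have A1 := bdd_fhat c1_exp
  have A2 := bdd_fhat c2_exp
  have A3 := bdd_fhat c3_exp
  have S2 : BddS (fun a => sF a ^ 2) := bdd_sF.pow 2
  have BQ2 : BddS (fun a => qQ u a ^ 2) := (bdd_qQ hu0.le hu12).pow 2
  have hEP := hE.nonneg (E_lin9_bdd A1 A2 A3 S2 BQ2 B1 B2 B3 18 (-75) (213 / 4) (-(1 / 1000)) (-9)
      ((-(aaH i v * 18) - bbH i v * (9 / 2)) / u ^ 2) ((aaH i v * 75 + bbH i v * (25 / 4)) / u ^ 2)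
      ((-(aaH i v * (221 / 4)) - bbH i v * (113 / 48) + lamH v) / u ^ 2)
      (-18 + 75 - 213 / 4
            - (aaH i v * (-18 + 75 - 221 / 4) + bbH i v * (-(9 / 2) + 25 / 4 - 113 / 48) + lamH v)
              / u ^ 2
            + lamH v * v - fFH i v))
      (fun a ha => pm_linear hu0 hu1 hi0 hi1 hv0 hvle rfl rfl rfl rfl hmH ha)
  rwa [E_lin9 hE A1 A2 A3 S2 BQ2 B1 B2 B3] at hEP

/-- The algebra of the final step. -/
theorem slevel_alg {G1 G2 G3 g1 g2 g3 d1 d2 w1 w2 v n1 n2 n3 T QQ m1 m2 m3 U lam ff : ℝ}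
    (hU : 0 < U) (e1 : 1 - m1 = w1 * U) (e2 : 1 - m2 = w2 * U) (e3 : 1 - m3 = v * U)
    (hG1 : g1 + d1 * (w1 - 3 * v / 4) - (w1 - 3 * v / 4) ^ 2 / 2 ≤ G1)
    (hG2 : G2 ≤ g2 + d2 * (w2 - 11 * v / 12)) (hG3 : g3 ≤ G3)
    (hJ : (((1 - m1) - 3 / 4 * (1 - m3)) / U) ^ 2 ≤ QQ)
    (hP : 0 ≤ 18 * n1 + (-75) * n2 + (213 / 4) * n3 + (-(1 / 1000)) * T + (-9) * QQ
        + ((-((3 * d2 - d1) / 2 * 18) - 6 * (d1 - d2) * (9 / 2)) / U) * m1
        + (((3 * d2 - d1) / 2 * 75 + 6 * (d1 - d2) * (25 / 4)) / U) * m2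
        + ((-((3 * d2 - d1) / 2 * (221 / 4)) - 6 * (d1 - d2) * (113 / 48) + lam) / U) * m3
        + (-18 + 75 - 213 / 4
            - ((3 * d2 - d1) / 2 * (-18 + 75 - 221 / 4)
                + 6 * (d1 - d2) * (-(9 / 2) + 25 / 4 - 113 / 48) + lam) / U
            + lam * v - ff))
    (hff : ff = 75 * g2 - 18 * g1 - 213 / 4 * g3) :
    -18 * G1 + 75 * G2 - 213 / 4 * G3
      ≤ -18 * (1 - n1) + 75 * (1 - n2) - 213 / 4 * (1 - n3) - (1 / 1000) * T := by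
  have hU' : U ≠ 0 := hU.ne'
  have m1e : m1 = 1 - w1 * U := by linarith
  have m2e : m2 = 1 - w2 * U := by linarith
  have m3e : m3 = 1 - v * U := by linarith
  have hJ' : (w1 - 3 / 4 * v) ^ 2 ≤ QQ := by
    have : ((1 - m1) - 3 / 4 * (1 - m3)) / U = w1 - 3 / 4 * v := by
      rw [e1, e3]
      field_simp
    rwa [this] at hJ
  have hP' : 0 ≤ -18 * (1 - n1) + 75 * (1 - n2) - 213 / 4 * (1 - n3) - (1 / 1000) * T - 9 * QQ
      - ((3 * d2 - d1) / 2) * (-18 * w1 + 75 * w2 - 221 / 4 * v)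
      - (6 * (d1 - d2)) * (-(9 / 2) * w1 + 25 / 4 * w2 - 113 / 48 * v) - ff := by
    convert hP using 1
    rw [m1e, m2e, m3e]
    field_simp
    ring
  rw [hff] at hP'
  have hsq : (w1 - 3 * v / 4) ^ 2 = (w1 - 3 / 4 * v) ^ 2 := by ring
  rw [hsq] at hG1
  have h1 : -18 * G1 ≤ -18 * (g1 + d1 * (w1 - 3 * v / 4) - (w1 - 3 / 4 * v) ^ 2 / 2) := by linarith
  have h2 : 75 * G2 ≤ 75 * (g2 + d2 * (w2 - 11 * v / 12)) := by linarith
  have h3 : -(213 / 4) * G3 ≤ -(213 / 4) * g3 := by linarith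
  linarith

/-- The range of the arguments. -/
theorem slevel_range (hE : IsEx E) (hu0 : 0 < u) (hu1 : u ≤ 9 / 20) :
    0 ≤ (1 - E (fun a => fhat c1 (Ch (-u) a))) / u ^ 2
    ∧ (1 - E (fun a => fhat c1 (Ch (-u) a))) / u ^ 2 ≤ (1 - E (fun a => fhat c3 (Ch (-u) a))) / u ^ 2
    ∧ 0 ≤ (1 - E (fun a => fhat c2 (Ch (-u) a))) / u ^ 2
    ∧ (1 - E (fun a => fhat c2 (Ch (-u) a))) / u ^ 2 ≤ (1 - E (fun a => fhat c3 (Ch (-u) a))) / u ^ 2
    ∧ (1 - E (fun a => fhat c3 (Ch (-u) a))) / u ^ 2 ≤ 21 / 10 := by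
  have hu2 : 0 < u ^ 2 := by positivity
  have hu12 : u ≤ 1 / 2 := by linarith
  have hl0 : -(1 / 2) ≤ -u := by linarith
  have hl1 : -u ≤ 1 := by linarith
  have B1 := bddF c1_exp hu0.le hu12
  have B2 := bddF c2_exp hu0.le hu12
  have B3 := bddF c3_exp hu0.le hu12
  have hm1le := hE.le_const B1 fun a ha => fhat_le_one c1_exp (Ch_inS hl0 hl1 ha)
  have hm2le := hE.le_const B2 fun a ha => fhat_le_one c2_exp (Ch_inS hl0 hl1 ha)
  have hm31 := hE.mono _ _ B3 B1 fun a ha => by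
    have hb := Ch_inS hl0 hl1 ha
    rw [fhat_c3, fhat_c1]
    exact f3_le_f1 (hb.1 0) (hb.1 1) (hb.1 2)
  have hm32 := hE.mono _ _ B3 B2 fun a ha => by
    have hb := Ch_inS hl0 hl1 ha
    rw [fhat_c3, fhat_c2]
    exact f3_le_f2 (hb.1 0) (hb.1 1) (hb.1 2)
  have hm3ge := hE.const_le B3 fun a ha => ph3_chan_le hu0 hu1 ha
  refine ⟨div_nonneg (by linarith) hu2.le, div_le_div_of_nonneg_right (by linarith) hu2.le,
    div_nonneg (by linarith) hu2.le, div_le_div_of_nonneg_right (by linarith) hu2.le, ?_⟩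
  rw [div_le_iff₀ hu2]
  linarith

/-- The drift inequality, generic in the recursion function. -/
theorem slevel (hE : IsEx E) {G : ℝ → ℝ} (hu0 : 0 < u) (hu1 : u ≤ 9 / 20) (hi0 : 0 ≤ i) (hi1 : i ≤ 1 / 5)
    (hmH : ∀ w, 0 ≤ w → w ≤ 21 / 10 → ∀ r t, 0 ≤ r → r ≤ 1 → 1 / 2 ≤ t → t ≤ 2 →
      0 ≤ mH i u w (s3R r t) (yyR r t))
    (hU : ∀ w, 0 ≤ w → w ≤ 21 / 10 → G w ≤ gP i 7 w)
    (hL : ∀ w, 0 ≤ w → w ≤ 21 / 10 → gP i 8 w ≤ G w) :
    -18 * G ((1 - E (fun a => fhat c1 (Ch (-u) a))) / u ^ 2)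
        + 75 * G ((1 - E (fun a => fhat c2 (Ch (-u) a))) / u ^ 2)
        - 213 / 4 * G ((1 - E (fun a => fhat c3 (Ch (-u) a))) / u ^ 2)
      ≤ -18 * (1 - E (fhat c1)) + 75 * (1 - E (fhat c2)) - 213 / 4 * (1 - E (fhat c3))
        - (1 / 1000) * E (fun a => sF a ^ 2) := by
  have hu2 : 0 < u ^ 2 := by positivity
  have hu12 : u ≤ 1 / 2 := by linarith
  obtain ⟨h10, h1v, h20, h2v, hvle⟩ := slevel_range hE hu0 hu1
  have hv0 := h10.trans h1v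
  set w1 := (1 - E (fun a => fhat c1 (Ch (-u) a))) / u ^ 2 with hw1
  set w2 := (1 - E (fun a => fhat c2 (Ch (-u) a))) / u ^ 2 with hw2
  set v := (1 - E (fun a => fhat c3 (Ch (-u) a))) / u ^ 2 with hv
  have hw1le : w1 ≤ 21 / 10 := h1v.trans hvle
  have hw2le : w2 ≤ 21 / 10 := h2v.trans hvle
  have ht1 : 3 * v / 4 ≤ 21 / 10 := by linarith
  have ht1' : 0 ≤ 3 * v / 4 := by linarith
  have ht2 : 11 * v / 12 ≤ 21 / 10 := by linarith
  have ht2' : 0 ≤ 11 * v / 12 := by linarith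
  have hG1 := (lower_tangent h10 hw1le ht1' ht1 hi0 hi1).trans (hL w1 h10 hw1le)
  have hG2 := (hU w2 h20 hw2le).trans (upper_tangent h20 hw2le ht2' ht2 hi0 hi1)
  have hG3 := hL v hv0 hvle
  refine slevel_alg (U := u ^ 2) (m1 := E (fun a => fhat c1 (Ch (-u) a)))
    (m2 := E (fun a => fhat c2 (Ch (-u) a))) (m3 := E (fun a => fhat c3 (Ch (-u) a)))
    (QQ := E (fun a => qQ u a ^ 2)) (lam := lamH v) (ff := fFH i v) hu2 ?_ ?_ ?_ hG1 hG2 hG3
    (qQ_jensen hE hu0 hu12) (pm_integrated hE hu0 hu1 hi0 hi1 hv0 hvle (hmH v hv0 hvle)) rfl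
  · rw [hw1]
    field_simp
  · rw [hw2]
    field_simp
  · rw [hv]
    field_simp

/-- The Poisson form of the drift inequality. -/
theorem f1_poisson_core (hE : IsEx E) (hu0 : 0 < u) (hu1 : u ≤ 4 / 9) :
    -18 * (1 - Real.exp (-(1 / u ^ 2 * (1 - E (fun a => fhat c1 (Ch (-u) a))))))
        + 75 * (1 - Real.exp (-(1 / u ^ 2 * (1 - E (fun a => fhat c2 (Ch (-u) a))))))
        - 213 / 4 * (1 - Real.exp (-(1 / u ^ 2 * (1 - E (fun a => fhat c3 (Ch (-u) a))))))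
      ≤ -18 * (1 - E (fhat c1)) + 75 * (1 - E (fhat c2)) - 213 / 4 * (1 - E (fhat c3))
        - (1 / 1000) * E (fun a => sF a ^ 2) := by
  have h := slevel (E := E) (u := u) (i := 0) (G := fun w => 1 - Real.exp (-w)) hE hu0 (by linarith)
    le_rfl (by norm_num)
    (fun w h0 h1 r t hr0 hr1 ht0 ht1 =>
      mH_P hr0 hr1 ht0 ht1 h0 (by linarith) hu0.le hu1)
    (fun w h0 _ => poi_upper h0) (fun w h0 _ => poi_lower h0)
  have e : ∀ x : ℝ, 1 / u ^ 2 * x = x / u ^ 2 := fun x => by ring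
  simp only [e]
  exact h

/-- The regular form of the drift inequality. -/
theorem f1_dary_core (hE : IsEx E) {d : ℕ} (hd : 5 ≤ d) (hu0 : 0 < u) (hdu : (d : ℝ) * u ^ 2 = 1) :
    -18 * (1 - E (fun a => fhat c1 (Ch (-u) a)) ^ d)
        + 75 * (1 - E (fun a => fhat c2 (Ch (-u) a)) ^ d)
        - 213 / 4 * (1 - E (fun a => fhat c3 (Ch (-u) a)) ^ d)
      ≤ -18 * (1 - E (fhat c1)) + 75 * (1 - E (fhat c2)) - 213 / 4 * (1 - E (fhat c3))
        - (1 / 1000) * E (fun a => sF a ^ 2) := by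
  have hd0 : 0 < d := by omega
  have hd' : (0 : ℝ) < d := by exact_mod_cast hd0
  have hd5 : (5 : ℝ) ≤ d := by exact_mod_cast hd
  have hi : u ^ 2 = 1 / (d : ℝ) := by
    field_simp
    linarith
  have hi1 : u ^ 2 ≤ 1 / 5 := by
    rw [hi]
    exact one_div_le_one_div_of_le (by norm_num) hd5
  have hu1 : u ≤ 9 / 20 := by
    nlinarith
  have h := slevel (E := E) (u := u) (i := u ^ 2) (G := fun w => 1 - (1 - w / d) ^ d) hE hu0 hu1
    (sq_nonneg u) hi1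
    (fun w h0 h1 r t hr0 hr1 ht0 ht1 =>
      mH_D hr0 hr1 ht0 ht1 h0 (by linarith) hu0.le hu1)
    (fun w h0 h1 => by
      rw [hi]
      exact dary_upper hd0 h0 (by linarith))
    (fun w h0 h1 => by
      rw [hi]
      exact dary_lower hd0 h0 (by linarith))
  have e : ∀ x : ℝ, x / u ^ 2 / d = x := fun x => by
    rw [hi]
    field_simp
  have e2 : ∀ x : ℝ, 1 - (1 - x) = x := fun x => by ring
  simp only [e, e2] at h
  exact h

end slevel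

end Vale.Agent.Lib.P154M
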